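import Mathlib

/-! The algorithm. -/

namespace Vale.Agent.P333

variable {A : Type} [DecidableEq A] [Inhabited A]

def pre (x v : List A) : Bool := decide (v.take x.length = x)

def cnt (D : List (List A)) (x : List A) : ℕ := D.countP (pre x)

def zz (u : List A) (q a n : ℕ) : A := u.getD ((n + (a + 1) * (q - 1)) % q) default

def brk (u : List A) (q a l : ℕ) (v : List A) : Bool :=
  !decide (v.getD 0 default = zz u q a 0) &&
    ((List.range (a + l)).all fun n => decide (v.getD (n + 1) default = zz u q a (n + 1))) &&
    ((List.range v.length).any fun n => Nat.ble 1 n && !decide (v.getD n default = zz u q a n))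

def bsum (D : List (List A)) (u : List A) (q l m : ℕ) : ℕ :=
  ((List.range m).map fun a => D.countP (brk u q a l)).sum

def qb (N : ℕ) (D : List (List A)) (x u : List A) : ℕ :=
  cond (decide (u.drop (u.length - x.length) = x) && pre x u &&
      Nat.ble (bsum D u (u.length - x.length) u.length N + 1) (cnt D u))
    (cnt D u + bsum D u (u.length - x.length) x.length (u.length - x.length) + 1) 0

def maxL (l : List ℕ) : ℕ := l.foldl max 0

def tgt (N : ℕ) (D : List (List A)) (x : List A) : ℕ :=
  max 1 (max (D.countP fun v => pre x v.tail) (maxL (D.map (qb N D x))))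

def longer (D : List (List A)) (x : List A) : List (List A) :=
  D.filter fun v => Nat.ble (x.length + 1) v.length

def stepD (N : ℕ) (D : List (List A)) (x : List A) : List (List A) :=
  D ++ List.replicate (min N (tgt N (longer D x) x - cnt D x)) x

def tot (S : List (List A)) : ℕ := (S.map List.length).sum

def subs (S : List (List A)) : List (List A) :=
  (List.range (tot S)).flatMap fun r => S.flatMap fun s =>
    ((List.range s.length).map fun i => (s.drop i).take (tot S - r)).filter
      fun v => Nat.beq v.length (tot S - r)

def toks (S : List (List A)) : List (List A) := (subs S).foldl (stepD (tot S)) []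

def stepM (D : List (List A)) (out : List ℕ) (t : List A) : List ℕ :=
  out ++ [((List.range D.length).filter fun k =>
    !(out.any fun i => Nat.beq i k) && pre t.tail (D.getD k [])).getD 0 0]

def mtch (D : List (List A)) : List ℕ := D.foldl (stepM D) []

def nx (M : List ℕ) (c k : ℕ) : ℕ := (fun i => M.getD i 0)^[c] k

def col (N : ℕ) (D : List (List A)) (M : List ℕ) (k : ℕ) : List (List A) :=
  ((List.range (N + 1)).filter fun e => Nat.ble (D.getD k []).length (e + 1) &&
    Nat.ble e (D.getD (M.getD k 0) []).length).map fun e => (D.getD (M.getD k 0) []).take e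

def loop (N : ℕ) (D : List (List A)) (M : List ℕ) (k j m : ℕ) : List (List A) :=
  (List.range (m + 1)).flatMap fun c => (col N D M (nx M c k)).filter fun v =>
    (!Nat.beq c 0 || Nat.ble j v.length) && (!Nat.beq c m || Nat.ble v.length j)

def loops (N : ℕ) (D : List (List A)) (M : List ℕ) : List (List (List A)) :=
  [] :: (List.range D.length).flatMap fun k => (List.range (N + 1)).flatMap fun j =>
    (List.range (D.length + 1)).map fun m => loop N D M k j m

def ov (a b : List A) : ℕ :=
  maxL ((List.range (b.length + 1)).filter fun k =>
    Nat.ble k a.length && decide (a.drop (a.length - k) = b.take k))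

def dist (a b : List A) : ℕ := b.length - ov a b

def cst : List A → List (List A) → ℕ
  | _, [] => 0
  | p, v :: l => dist p v + cst v l

def glue (s v : List A) : List A := s ++ v.drop (ov s v)

def used (N : ℕ) (D : List (List A)) (M : List ℕ) (t : List (List A)) (k : ℕ) : Bool :=
  (List.range D.length).all fun c => (col N D M (nx M c k)).all fun v =>
    t.any fun w => decide (w = v)

def nu (N : ℕ) (D : List (List A)) (M : List ℕ) (t : List (List A)) : ℕ :=
  (List.range D.length).countP (used N D M t)

def cands (L : List (List (List A))) (t : List (List A)) : List (List (List A)) :=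
  (List.range (t.length + 1)).flatMap fun p => L.flatMap fun L1 => L.flatMap fun L2 =>
    L.map fun L3 => t.take p ++ (L1 ++ L2 ++ L3) ++ t.drop p

def stepT (N : ℕ) (D : List (List A)) (M : List ℕ) (t : List (List A)) : List (List A) :=
  ((cands (loops N D M) t).filter fun t' => Nat.ble (nu N D M t + 1) (nu N D M t') &&
    Nat.ble (cst [] t') (2 * nu N D M t')).getD 0 t

def tour (N : ℕ) (D : List (List A)) (M : List ℕ) : List (List A) :=
  (List.range D.length).foldl (fun t _ => stepT N D M t) []

def alg (S : List (List A)) : List A :=
  (tour (tot S) (toks S) (mtch (toks S))).foldl glue []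

lemma pre_iff {x v : List A} : pre x v = true ↔ x <+: v := by
  rw [pre, decide_eq_true_eq, List.prefix_iff_eq_take, eq_comm]

lemma foldl_max_le {l : List ℕ} {a b : ℕ} : l.foldl max a ≤ b ↔ a ≤ b ∧ ∀ x ∈ l, x ≤ b := by
  induction l generalizing a with
  | nil => simp
  | cons c l ih => simp [ih, and_assoc]

lemma maxL_le {l : List ℕ} {b : ℕ} : maxL l ≤ b ↔ ∀ x ∈ l, x ≤ b := by
  simp [maxL, foldl_max_le]

lemma le_maxL {l : List ℕ} {x : ℕ} (h : x ∈ l) : x ≤ maxL l := maxL_le.1 le_rfl x h

lemma maxL_mem (l : List ℕ) : maxL l = 0 ∨ maxL l ∈ l := by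
  by_contra h
  push Not at h
  have : maxL l ≤ maxL l - 1 := maxL_le.2 fun x hx => by
    have := le_maxL hx
    have : x ≠ maxL l := fun e => h.2 (e ▸ hx)
    omega
  omega

lemma cst_eq (p : List A) (l : List (List A)) : cst p l =
    ((List.range l.length).map fun i => dist ((p :: l).getD i []) (l.getD i [])).sum := by
  induction l generalizing p with
  | nil => rfl
  | cons v l ih =>
    rw [cst, ih, List.length_cons, List.range_succ_eq_map, List.map_cons, List.sum_cons,
      List.map_map]
    rfl

end Vale.Agent.P333
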