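import Vale.Agent.P333.Low

/-! Properties of the token list. -/

namespace Vale.Agent.P333

open Finset

set_option linter.unusedSectionVars false

variable {A : Type} [DecidableEq A] [Inhabited A]

lemma le_tot {S : List (List A)} {s : List A} (h : s ∈ S) : s.length ≤ tot S :=
  List.le_sum_of_mem (List.mem_map_of_mem h)

lemma mem_subs {S : List (List A)} {x : List A} : x ∈ subs S ↔ x ≠ [] ∧ ∃ s ∈ S, x <:+: s := by
  simp only [subs, List.mem_flatMap, List.mem_range, List.mem_filter, List.mem_map, Nat.beq_eq]
  constructor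
  · rintro ⟨r, hr, s, hs, ⟨i, -, rfl⟩, h⟩
    refine ⟨fun e => ?_, s, hs, (List.take_prefix _ _).isInfix.trans (List.drop_suffix _ _).isInfix⟩
    rw [e] at h
    simp at h; omega
  · rintro ⟨h0, s, hs, a, b, rfl⟩
    have h1 := List.length_pos_iff.2 h0
    have h2 := le_tot hs
    simp only [List.length_append] at h2
    have e : tot S - (tot S - x.length) = x.length := by omega
    exact ⟨tot S - x.length, by omega, _, hs, ⟨a.length, by simp; omega, by simp [e]⟩, e.symm⟩

lemma subs_sorted (S : List (List A)) : (subs S).Pairwise fun a b => b.length ≤ a.length := by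
  have key : ∀ r, ∀ x ∈ S.flatMap fun s => ((List.range s.length).map fun i =>
      (s.drop i).take (tot S - r)).filter fun v => Nat.beq v.length (tot S - r),
      x.length = tot S - r := by
    simp only [List.mem_flatMap, List.mem_filter, Nat.beq_eq]
    rintro r x ⟨_, _, _, h⟩
    exact h
  rw [subs, List.pairwise_flatMap]
  refine ⟨fun r _ => List.pairwise_of_forall_mem_list fun a ha b hb => ?_,
    List.pairwise_lt_range.imp fun {r r'} h a ha b hb => ?_⟩
  · rw [key _ _ ha, key _ _ hb]
  · rw [key _ _ ha, key _ _ hb]; omega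

lemma countP_longer (D : List (List A)) (x : List A) {P : List A → Bool}
    (h : ∀ v, P v = true → x.length < v.length) : (longer D x).countP P = D.countP P := by
  rw [longer, List.countP_filter]
  refine List.countP_congr fun v _ => ?_
  simp only [Bool.and_eq_true, Nat.ble_eq]
  exact ⟨fun h' => h'.1, fun h' => ⟨h', h v h'⟩⟩

lemma occ_le (T : List A) (P : List A → Bool) : occ T P ≤ T.length :=
  (card_filter_le _ _).trans (card_range _).le

lemma tgt_le {N : ℕ} {E : List (List A)} {T x : List A} (hD : Dom E T)
    (hE : ∀ v ∈ E, x.length < v.length ∧ v.length ≤ N) (h0 : x ≠ []) (hx : x <:+: T) :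
    tgt N E x ≤ occ T (pre x) := by
  have h1 := List.length_pos_iff.2 h0
  refine max_le ?_ (max_le ?_ (maxL_le.2 ?_))
  · obtain ⟨a, b, rfl⟩ := hx
    exact card_pos.2 ⟨a.length, by simp [pre_iff]; omega⟩
  · refine (hD _ fun v v' hv h => ?_).trans ?_
    · obtain ⟨r, rfl⟩ := hv
      rw [pre_iff] at h ⊢
      cases v with
      | nil => simp [h0] at h
      | cons a v => exact h.trans (by simp)
    · refine card_le_card_of_injOn (· + 1) (fun k hk => ?_) (add_left_injective 1).injOn
      simp only [coe_filter, mem_range, Set.mem_ofPred_eq, List.tail_drop, pre_iff] at hk ⊢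
      have := hk.2.length_le
      rw [List.length_drop] at this
      exact ⟨by omega, hk.2⟩
  · simp only [List.mem_map]
    rintro _ ⟨u, hu, rfl⟩
    rw [qb]
    generalize hq : u.length - x.length = q
    cases h : decide (u.drop q = x) && pre x u && Nat.ble (bsum E u q u.length N + 1) (cnt E u)
    · exact Nat.zero_le _
    · simp only [Bool.and_eq_true, decide_eq_true_eq, pre_iff, Nat.ble_eq] at h
      obtain ⟨⟨rfl, h2⟩, h3⟩ := h
      have := (hE u hu).1
      have := occ_key T (by omega) (by omega) h2 hD (fun v hv => (hE v hv).2) h3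
      simpa using this

lemma dom_step {D : List (List A)} {T x : List A} (hD : Dom D T)
    (hl : ∀ v ∈ D, x.length ≤ v.length) {c : ℕ} (hc : cnt D x + c ≤ occ T (pre x)) :
    Dom (D ++ List.replicate c x) T := by
  intro P hP
  rw [List.countP_append, List.countP_replicate]
  split_ifs with h
  · have e : (fun v => P v && pre x v) = pre x := funext fun v => by
      cases h' : pre x v
      · simp
      · simp [hP x v (pre_iff.1 h') h]
    have h1 : D.countP (fun v => P v && !pre x v)
        = D.countP fun v => (P v && !pre x v) && Nat.ble x.length v.length :=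
      List.countP_congr fun v hv => by simp [hl v hv]
    have h2 := hD (fun v => (P v && !pre x v) && Nat.ble x.length v.length) fun v v' hv h => by
      simp only [Bool.and_eq_true, Bool.not_eq_true', ← Bool.not_eq_true, pre_iff, Nat.ble_eq] at h ⊢
      exact ⟨⟨hP v v' hv h.1.1, fun h' => h.1.2 (List.prefix_of_prefix_length_le h' hv h.2)⟩,
        h.2.trans hv.length_le⟩
    have h3 : occ T (fun v => (P v && !pre x v) && Nat.ble x.length v.length)
        ≤ occ T fun v => P v && !pre x v := occ_mono T fun v h => (Bool.and_eq_true_iff.1 h).1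
    rw [countP_split _ _ (pre x), occ_split _ _ (pre x), e]
    unfold cnt at hc
    omega
  · exact hD P hP

lemma build_spec (N : ℕ) (Sup : List A → Prop) (T0 : List A) (h0 : Sup T0) (h1 : T0.length ≤ N)
    (xs : List (List A)) (hs : xs.Pairwise fun a b => b.length ≤ a.length)
    (hx : ∀ x ∈ xs, x ≠ [] ∧ x.length ≤ N ∧ ∀ T, Sup T → x <:+: T) :
    (∀ v ∈ xs.foldl (stepD N) [], v ∈ xs) ∧
      ((xs.foldl (stepD N) []).Pairwise fun a b => b.length ≤ a.length) ∧
      (∀ T, Sup T → Dom (xs.foldl (stepD N) []) T) ∧
      ∀ x ∈ xs, tgt N (longer (xs.foldl (stepD N) []) x) x ≤ cnt (xs.foldl (stepD N) []) x := by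
  induction xs using List.reverseRecOn with
  | nil => simp [Dom]
  | append_singleton ys x ih =>
    rw [List.pairwise_append] at hs
    obtain ⟨i1, i2, i3, i4⟩ := ih hs.1 fun y hy => hx y (by simp [hy])
    rw [List.foldl_append, List.foldl_cons, List.foldl_nil]
    generalize ys.foldl (stepD N) [] = D at i1 i2 i3 i4
    have hl : ∀ y ∈ ys, x.length ≤ y.length := fun y hy => hs.2.2 y hy x (by simp)
    have ht : ∀ T, Sup T → tgt N (longer D x) x ≤ occ T (pre x) := fun T hT =>
      tgt_le (fun P hP => (List.filter_sublist.countP_le).trans (i3 T hT P hP))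
        (fun v hv => by
          simp only [longer, List.mem_filter, Nat.ble_eq] at hv
          exact ⟨hv.2, (hx v (by simp [i1 v hv.1])).2.1⟩)
        (hx x (by simp)).1 ((hx x (by simp)).2.2 T hT)
    have hlo : ∀ y : List A, x.length ≤ y.length → longer (stepD N D x) y = longer D y := by
      intro y hy
      rw [stepD, longer, List.filter_append,
        (List.filter_eq_nil_iff (l := List.replicate _ _)).2, List.append_nil, longer]
      intro v hv
      rw [List.eq_of_mem_replicate hv, Nat.ble_eq]
      omega
    refine ⟨fun v hv => ?_, ?_, fun T hT => dom_step (i3 T hT) (fun v hv => hl v (i1 v hv)) ?_,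
      fun y hy => ?_⟩
    · rcases List.mem_append.1 hv with h | h
      · simp [i1 v h]
      · simp [List.eq_of_mem_replicate h]
    · rw [stepD, List.pairwise_append]
      refine ⟨i2, by simp, fun a ha b hb => ?_⟩
      rw [List.eq_of_mem_replicate hb]
      exact hl a (i1 a ha)
    · have := ht T hT
      have : cnt D x ≤ occ T (pre x) := i3 T hT _ (mono_pre x)
      omega
    · rcases List.mem_append.1 hy with h | h
      · rw [hlo y (hl y h)]
        refine (i4 y h).trans ?_
        rw [stepD, cnt, cnt, List.countP_append]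
        omega
      · rw [List.mem_singleton.1 h, hlo x le_rfl]
        have := (ht T0 h0).trans ((occ_le _ _).trans h1)
        have e : cnt (stepD N D x) x = cnt D x + min N (tgt N (longer D x) x - cnt D x) := by
          rw [stepD, cnt, List.countP_append, List.countP_replicate, if_pos (pre_iff.2 (by rfl))]
          rfl
        omega

theorem toks_spec (S : List (List A)) :
    (∀ v ∈ toks S, v ≠ [] ∧ ∃ s ∈ S, v <:+: s) ∧
      ((toks S).Pairwise fun a b => b.length ≤ a.length) ∧
      (∀ T, (∀ s ∈ S, s <:+: T) → (toks S).length ≤ T.length) ∧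
      (∀ s ∈ S, s ≠ [] → 1 ≤ cnt (toks S) s) ∧
      (∀ x, (toks S).countP (fun v => pre x v.tail) ≤ cnt (toks S) x) ∧
      ∀ u ∈ toks S, ∀ q, 0 < q → q < u.length → u.drop q <+: u →
        bsum (toks S) u q u.length (tot S) < cnt (toks S) u →
        cnt (toks S) u + bsum (toks S) u q (u.length - q) q < cnt (toks S) (u.drop q) := by
  obtain ⟨i1, i2, i3, i4⟩ := build_spec (tot S) (fun T => ∀ s ∈ S, s <:+: T) S.flatten
    (fun s hs => List.infix_of_mem_flatten hs) (by simp [tot]) (subs S) (subs_sorted S)
    fun x hx => by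
      obtain ⟨h0, s, hs, h⟩ := mem_subs.1 hx
      exact ⟨h0, h.length_le.trans (le_tot hs), fun T hT => h.trans (hT s hs)⟩
  change ∀ v ∈ toks S, _ at i1
  change ∀ x ∈ _, tgt _ (longer (toks S) x) x ≤ cnt (toks S) x at i4
  refine ⟨fun v hv => mem_subs.1 (i1 v hv), i2, fun T hT => ?_, fun s hs h0 => ?_, fun x => ?_,
    fun u hu q h1 h2 h3 h4 => ?_⟩
  · have := (i3 T hT (fun _ => true) fun _ _ _ _ => rfl).trans (occ_le _ _)
    simpa [toks] using this
  · exact (le_max_left _ _).trans (i4 s (mem_subs.2 ⟨h0, s, hs, List.infix_refl _⟩))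
  · by_cases h0 : x = []
    · subst h0
      exact List.countP_mono_left fun v _ _ => pre_iff.2 List.nil_prefix
    by_cases h : x ∈ subs S
    · refine le_trans ?_ (((le_max_left _ _).trans (le_max_right _ _)).trans (i4 x h))
      refine (countP_longer _ _ fun v hv => ?_).ge
      have := (pre_iff.1 hv).length_le
      have := List.length_pos_iff.2 h0
      rw [List.length_tail] at *
      omega
    · refine (List.countP_eq_zero.2 fun v hv h' => h ?_).le.trans (Nat.zero_le _)
      obtain ⟨-, s, hs, h1⟩ := mem_subs.1 (i1 v hv)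
      exact mem_subs.2 ⟨h0, s, hs,
        ((pre_iff.1 h').isInfix.trans (List.tail_suffix v).isInfix).trans h1⟩
  · obtain ⟨-, s, hs, h5⟩ := mem_subs.1 (i1 u hu)
    have hl : (u.drop q).length = u.length - q := List.length_drop
    refine lt_of_lt_of_le ?_ (((le_max_right _ _).trans (le_max_right _ _)).trans
      (i4 _ (mem_subs.2 ⟨by simpa using h2, s, hs, (List.drop_suffix _ _).isInfix.trans h5⟩)))
    refine lt_of_lt_of_le ?_ (le_maxL (List.mem_map_of_mem (a := u)
      (by simp [longer, hu]; omega)))
    have e1 : cnt (longer (toks S) (u.drop q)) u = cnt (toks S) u :=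
      countP_longer _ _ fun v hv => by have := (pre_iff.1 hv).length_le; omega
    have e2 : ∀ l m, u.length - q ≤ l → bsum (longer (toks S) (u.drop q)) u q l m
        = bsum (toks S) u q l m := fun l m h => by
      rw [bsum_eq, bsum_eq]
      exact sum_congr rfl fun a _ => countP_longer _ _ fun v hv => by
        have := brk_len h1 hv; omega
    rw [qb, hl, show u.length - (u.length - q) = q by omega, e1, e2 _ _ le_rfl, e2 _ _ (by omega),
      pre_iff.2 h3, Nat.ble_eq_true_of_le h4]
    simp

end Vale.Agent.P333
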