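import Vale.Agent.P333.Plane

/-! The geometric core: as long as a maximal word is unused, an affordable attachment exists. -/

namespace Vale.Agent.P333

set_option linter.unusedSectionVars false

variable {A : Type} [DecidableEq A] [Inhabited A]

namespace Sys

variable {ι : Type} [Fintype ι] [DecidableEq ι] (s : Sys A ι) (U : ι → Prop)

def Opt : Prop :=
  (∃ t t' x y, U t ∧ ¬U t' ∧ s.Vx t x ∧ s.Vx t' y ∧ dist y x + dist x y ≤ s.per t) ∨
  (∃ t x, U t ∧ s.Vx t x ∧ x.length ≤ s.per t) ∨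
  (∃ t t' x y, U t ∧ U t' ∧ ¬s.σ.SameCycle t t' ∧ s.Vx t x ∧ s.Vx t' y ∧
    x.length + dist x y ≤ s.per t + s.per t') ∨
  ∃ t t' t'' x y v, U t ∧ U t' ∧ U t'' ∧ ¬s.σ.SameCycle t t' ∧ ¬s.σ.SameCycle t t'' ∧
    ¬s.σ.SameCycle t' t'' ∧ s.Vx t x ∧ s.Vx t' y ∧ s.Vx t'' v ∧
    x.length + dist x y + dist y v ≤ s.per t + s.per t' + s.per t''

def Free (z : ℤ → A) (i j : ℤ) : Prop :=
  ∀ c d, c ≤ i → j ≤ d → ∀ t, ¬U t → ¬s.Vx t (seg z c d)

def Good (z : ℤ → A) (i : ℤ) (t : ι) : Prop :=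
  U t ∧ (∀ n, s.w t (n - i) = z n) ∧ s.Free U z i (i + (s.wd t).length)

def Run (z : ℤ → A) (t : ι) (o α β : ℤ) : Prop :=
  U t ∧ (∀ n, α ≤ n → n < β → s.w t (n - o) = z n) ∧ s.w t (β - o) ≠ z β ∧
    s.f t (α - 1 - o) + o ≤ β

variable {s U} {z : ℤ → A}

lemma vx_at {t : ι} {o c d : ℤ} (h : ∀ n, c ≤ n → n < d → s.w t (n - o) = z n)
    (h1 : s.f t (c - 1 - o) + o ≤ d) (h2 : d ≤ s.f t (c - o) + o) : s.Vx t (seg z c d) := by
  rw [seg_congr (z' := s.w t) (c' := c - o) (d' := d - o) (by ring) fun n n1 n2 => by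
    rw [← h n n1 n2]; congr 1; ring]
  exact s.vx_seg t (by rw [show c - o - 1 = c - 1 - o by ring]; omega) (by omega)

lemma Free.mono {i j i' j' : ℤ} (h : s.Free U z i j) (h1 : i' ≤ i) (h2 : j ≤ j') :
    s.Free U z i' j' := fun c d c1 d1 => h c d (c1.trans h1) (h2.trans d1)

lemma seg_shift {p : ℤ} (hz : ∀ n, z (n + p) = z n) (c d k : ℤ) :
    seg z (c + k * p) (d + k * p) = seg z c d :=
  seg_congr (by ring) fun n _ _ => by
    rw [← Function.Periodic.int_mul hz k (n - (c + k * p) + c)]; congr 1; simp only [Int.cast_id]; ring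

lemma Free.shift {p i j : ℤ} (hz : ∀ n, z (n + p) = z n) (h : s.Free U z i j) (k : ℤ) :
    s.Free U z (i + k * p) (j + k * p) := fun c d c1 d1 t ht hv =>
  h (c - k * p) (d - k * p) (by omega) (by omega) t ht (by
    rw [← seg_shift hz _ _ k]; simpa using hv)

lemma box (hn : ¬s.Opt U) {t : ι} (ht : U t) {i j : ℤ} (hv : s.Vx t (seg z i j)) {q : ℕ}
    (hz : ∀ n, z (n + q) = z n) (hq : q ≤ s.per t) (h : s.Free U z i j) :
    s.Free U z (i + q) j := by
  intro c d c1 d1 t' ht' hv'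
  have h1 : ¬c ≤ i := fun e => h c d e d1 t' ht' hv'
  have h2 : ¬j + 1 * q ≤ d := fun e => h.shift hz 1 c d (by omega) e t' ht' hv'
  refine hn (Or.inl ⟨t, t', _, _, ht, ht', hv, hv', ?_⟩)
  have e1 := dist_seg z (i := i) (j := j) (i' := c) (j' := d) (by omega) d1
  have e2 := dist_seg z (i := c) (j := d) (i' := i + 1 * q) (j' := j + 1 * q) (by omega) (by omega)
  rw [seg_shift hz] at e2
  omega

lemma per_of_al {t : ι} {o : ℤ} (h : ∀ n, s.w t (n - o) = z n) (n : ℤ) : z (n + s.per t) = z n := by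
  rw [← h, ← h, ← s.w_per t (n - o)]; congr 1; ring

lemma per_lt (hn : ¬s.Opt U) {t : ι} (ht : U t) {c d : ℤ} (hv : s.Vx t (seg z c d)) :
    c + s.per t < d := by
  have : ¬(seg z c d).length ≤ s.per t := fun h => hn (Or.inr (Or.inl ⟨t, _, ht, hv, h⟩))
  rw [length_seg] at this
  omega

lemma good_of_free (hn : ¬s.Opt U) (hU : ∀ t t', s.σ.SameCycle t t' → U t → U t') {t : ι}
    (ht : U t) {o c d : ℤ} (h : ∀ n, s.w t (n - o) = z n) (h1 : s.f t (c - 1 - o) + o ≤ d)
    (h2 : d ≤ s.f t (c - o) + o) (hf : s.Free U z c d) (i : ℤ) :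
    s.Good U z i ((s.σ ^ (i - o)) t) := by
  refine ⟨hU _ _ ⟨_, rfl⟩ ht, fun n => by rw [w_zpow, ← h]; congr 1; ring, ?_⟩
  have hz := per_of_al h
  have hp := s.per_pos t
  have e := Int.emod_add_ediv_mul (i - c) (s.per t)
  have e1 := Int.emod_nonneg (i - c) (show (s.per t : ℤ) ≠ 0 by omega)
  have e2 := Int.emod_lt_of_pos (i - c) (show (0 : ℤ) < s.per t by omega)
  refine ((box hn ht (vx_at (fun n _ _ => h n) h1 h2) hz le_rfl hf).shift hz
    ((i - c) / s.per t)).mono (by omega) ?_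
  generalize (i - c) / s.per t = k at e
  have e3 : s.f t (c - o + k * s.per t) - (c - o + k * s.per t) = s.f t (c - o) - (c - o) :=
    Function.Periodic.int_mul (f := fun n => s.f t n - n) (c := (s.per t : ℤ))
      (fun n => by simp only [f_per]; ring) k (c - o)
  have e4 := s.f_mono t (show c - o + k * s.per t ≤ i - o by omega)
  rw [len_zpow]
  omega

lemma run_vx {t : ι} {o α β : ℤ} (h : s.Run U z t o α β) :
    s.Vx t (seg z α (s.f t (α - 1 - o) + o)) :=
  vx_at (fun n n1 n2 => h.2.1 n n1 (n2.trans_le h.2.2.2)) le_rfl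
    (by have := s.f_mono t (show α - 1 - o ≤ α - o by omega); omega)

lemma run_lt {t : ι} {o α β : ℤ} (h : s.Run U z t o α β) {p : ℕ} (hp : 0 < p)
    (hz : ∀ n, z (n + p) = z n) : β < α + p + s.per t := by
  by_contra h1
  refine h.2.2.1 (fw (z := fun n => s.w t (n - o)) (s.per_pos t) hp (fun n => ?_) hz (a := α)
    (fun n n1 n2 => h.2.1 n n1 (by omega)) β)
  rw [← s.w_per t (n - o)]; congr 1; ring

lemma run_ne (hn : ¬s.Opt U) {t t' : ι} {o α β i : ℤ} (h : s.Run U z t o α β)
    (h' : ∀ n, s.w t' (n - i) = z n) : ¬s.σ.SameCycle t t' := by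
  intro hc
  have h1 := per_lt hn h.1 (run_vx h)
  have h2 := h.2.2.2
  refine h.2.2.1 (per_ext (z := fun n => s.w t (n - o)) (s.per_pos t) (fun n => ?_)
    (fun n => by rw [← s.per_eq hc, per_of_al h']) (a := α)
    (fun n n1 n2 => h.2.1 n n1 (by omega)) β)
  rw [← s.w_per t (n - o)]; congr 1; ring

theorem geo {N : ℕ} (hQ : s.Q N) (hU : ∀ t t', s.σ.SameCycle t t' → U t → U t') {s0 : ι}
    (hs : U s0) (hmax : ∀ t, s.wd s0 <:+: s.wd t → s.wd t = s.wd s0) : s.Opt U := by
  classical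
  by_contra hn
  have ex : ∃ p : ℕ, 0 < p ∧ ∀ n, s.w s0 (n + p) = s.w s0 n := ⟨_, s.per_pos s0, s.w_per s0⟩
  obtain ⟨hp, hz⟩ := Nat.find_spec ex
  have hmin : ∀ t i, (∀ n, s.w t (n - i) = s.w s0 n) → Nat.find ex ≤ s.per t := fun t i h =>
    Nat.find_min' ex ⟨s.per_pos t, per_of_al h⟩
  generalize Nat.find ex = p at hp hz hmin
  have h0 : ∀ i, ∃ l, ∃ t, s.Good U (s.w s0) i t ∧ (s.wd t).length = l := fun i => by
    have e := s.wd_eq s0 0
    rw [zpow_zero, Equiv.Perm.one_apply] at e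
    have hv : s.Vx s0 (s.wd s0) := by
      rw [e]; exact s.vx_seg s0 (s.f_mono s0 (by omega)) le_rfl
    refine ⟨_, _, good_of_free hn hU hs (o := 0) (c := 0) (d := s.f s0 0) (by simp)
      (by simpa using s.f_mono s0 (show (-1 : ℤ) ≤ 0 by omega)) (by simp)
      (fun c d c1 d1 t ht hv' => ?_) i, rfl⟩
    have h1 : s.wd s0 <:+: seg (s.w s0) c d := by
      have : seg (s.w s0) 0 d = (seg (s.w s0) c d).drop (-c).toNat := (eq_seg (by simp; omega)
        fun n hn => by
          simp only [List.length_drop, length_seg] at hn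
          rw [getD_drop, getD_seg _ _ _ (by omega)]
          congr 1; omega).symm
      rw [e]
      exact (seg_prefix _ _ d1).isInfix.trans (this ▸ (List.drop_suffix _ _).isInfix)
    obtain ⟨t', -, -, h2⟩ := id hv'
    have h3 := hmax _ (h1.trans h2.isInfix)
    have h4 : seg (s.w s0) c d = s.wd s0 :=
      (h1.eq_of_length_le (h3 ▸ h2.length_le)).symm
    refine hn (Or.inl ⟨s0, t, _, _, hs, ht, hv, hv', ?_⟩)
    have := dist_seg (s.w s0) (le_refl 0) (le_refl (s.f s0 0))
    rw [h4]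
    rw [← e] at this
    omega
  generalize s.w s0 = z at hz hmin h0
  obtain ⟨g, tk, hg, hl, gmin⟩ : ∃ (g : ℤ → ℤ) (tk : ℤ → ι), (∀ i, s.Good U z i (tk i)) ∧
      (∀ i, g i = i + (s.wd (tk i)).length) ∧
      ∀ i t, s.Good U z i t → g i ≤ i + (s.wd t).length := by
    choose tk h1 h2 using fun i => Nat.find_spec (h0 i)
    refine ⟨_, tk, h1, fun _ => rfl, fun i t ht => ?_⟩
    have := Nat.find_min' (h0 i) ⟨t, ht, rfl⟩
    rw [h2]; omega
  have top : ∀ i, s.f (tk i) (i - i) + i = g i := fun i => by rw [sub_self, f_zero, hl, add_comm]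
  have gle : ∀ i j, g j ≤ s.f (tk i) (j - i) + i := fun i j => by
    have h1 := s.f_mono (tk i) (show i - 1 - i ≤ i - i by omega)
    have := gmin j _ (good_of_free hn hU (hg i).1 (hg i).2.1 (c := i) (d := g i)
      (by have := top i; omega) (top i).ge (hl i ▸ (hg i).2.2) j)
    rw [len_zpow] at this
    omega
  have gmono : ∀ i j, i ≤ j → g i ≤ g j := fun i j h => by
    have := s.f_mono (tk j) (show i - j ≤ j - j by omega)
    have := gle j i
    have := top j
    omega
  have gper : ∀ i, g (i + p) ≤ g i + p := fun i => by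
    have := gmin (i + 1 * p) (tk i) ⟨(hg i).1, fun n => by
      have := (hg i).2.1 (n - p)
      rw [← hz, sub_add_cancel] at this
      rw [← this]; congr 1; ring,
      by have := (hg i).2.2.shift hz 1; rwa [add_right_comm] at this⟩
    rw [one_mul] at this
    have := hl i
    omega
  have gtail : ∀ i, s.Vx (tk (i - 1)) (seg z i (g (i - 1))) := fun i =>
    vx_at (fun n _ _ => (hg (i - 1)).2.1 n) (top (i - 1)).le (gle _ _ |>.trans' (gmono _ _ (by omega)))
  have hR : ∀ i, ∃ t o α β, s.Run U z t o α β ∧ α ≤ i + p ∧ g i ≤ β := fun i => by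
    have a1 := per_lt hn (hg (i + 1 - 1)).1 (gtail (i + 1))
    rw [add_sub_cancel_right] at a1
    have a2 := hmin _ _ (hg i).2.1
    have a3 := hl i
    have a4 : ∀ n, s.w (tk i) (n - (i + p)) = z n := fun n => by
      rw [← hz, ← (hg i).2.1]
      have := (hg i).2.1 (n - p)
      rw [← hz, ← (hg i).2.1] at this
      have e := (hg i).2.1 n
      rw [(hg i).2.1, hz, ← e, show n - (i + p) = n - p - i by ring, this]; congr 1; ring
    have fr : s.Free U z (i + p) (g i) := box hn (hg i).1 (vx_at (fun n _ _ => (hg i).2.1 n)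
      (by have := s.f_mono (tk i) (show i - 1 - i ≤ i - i by omega); have := top i; omega)
      (top i).ge) hz a2 (hl i ▸ (hg i).2.2)
    obtain ⟨t, t1, ⟨t2, t3⟩ | ⟨α, β, t2, t3, t4, t5, t6⟩⟩ := s.exists_next hQ (t := tk i) hp
      (by omega) fun n => by
        have e := a4 (n + p + (i + p))
        have e' := a4 (n + (i + p))
        rw [add_sub_cancel_right] at e e'
        rw [e, e', ← hz (n + (i + p))]; congr 1; ring
    · have al : ∀ n, s.w t (n - (i + p)) = z n := fun n => by rw [t2, a4]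
      obtain ⟨c, c1, c2, c3, c4⟩ := exists_col (F := fun c => s.f t (c - (i + p)) + (i + p))
        (a := i + 1) (b := i + p) (d := g i) (by omega)
        (by rw [show i + 1 - 1 - (i + p) = -p by ring]; omega) (by rw [sub_self]; omega)
      have ht : U t := by
        by_contra ht
        exact fr c _ c2 le_rfl t ht (vx_at (fun n _ _ => al n) c3 c4)
      have := gmin i _ (good_of_free hn hU ht al c3 c4 (fr.mono c2 le_rfl) i)
      rw [len_zpow, show i - (i + p) = -p by ring] at this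
      omega
    · have ag : ∀ n, α + (i + p) ≤ n → n < β + (i + p) → s.w t (n - (i + p)) = z n :=
        fun n n1 n2 => by rw [t4 _ (by omega) (by omega), a4]
      refine ⟨t, i + p, α + (i + p), β + (i + p), ⟨?_, ag, ?_, ?_⟩, by omega, by omega⟩
      · by_contra ht
        have := s.f_mono t (show α - 1 ≤ 0 by omega)
        obtain ⟨c, c1, c2, c3, c4⟩ := exists_col (F := fun c => s.f t (c - (i + p)) + (i + p))
          (a := α + (i + p)) (b := i + p) (d := max (g i) (s.f t (α - 1) + (i + p))) (by omega)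
          (by rw [show α + (i + p) - 1 - (i + p) = α - 1 by ring]; omega)
          (by rw [sub_self]; omega)
        exact fr c _ c2 (le_max_left _ _) t ht
          (vx_at (fun n n1 n2 => ag n (by omega) (by omega)) c3 c4)
      · rw [← a4, add_sub_cancel_right]; exact t5
      · rw [show α + (i + p) - 1 - (i + p) = α - 1 by ring]; omega
  have hP : ∀ t o α β, s.Run U z t o α β → β < g (α - 1) := fun t o α β h => by
    by_contra h1
    have h2 := run_ne hn h (hg (α - 1)).2.1
    have h3 := run_lt h (s.per_pos _) (per_of_al (hg (α - 1)).2.1)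
    have h4 := h.2.2.2
    have h5 := s.lt_f t (α - 1 - o)
    have h6 := per_lt hn (hg _).1 (gtail α)
    rcases le_total (s.f t (α - 1 - o) + o) (g (α - 1)) with h7 | h7
    · refine hn (Or.inr (Or.inr (Or.inl ⟨_, _, _, _, h.1, (hg _).1, h2, run_vx h, gtail α, ?_⟩)))
      have := dist_seg z (le_refl α) h7
      rw [length_seg]; omega
    · refine hn (Or.inr (Or.inr (Or.inl ⟨_, _, _, _, (hg _).1, h.1, fun e => h2 e.symm, gtail α,
        run_vx h, ?_⟩)))
      have := dist_seg z (le_refl α) h7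
      rw [length_seg]; omega
  obtain ⟨_, ⟨i0, t, o, α, β, r1, r2, r3, rfl⟩, hmx⟩ := Int.exists_greatest_of_bdd
    (P := fun l => ∃ i t o α β, s.Run U z t o α β ∧ α ≤ i + p ∧ g i ≤ β ∧ l = β - α)
    ⟨p + Fintype.card ι, by
      rintro _ ⟨i, t, o, α, β, h, -, -, rfl⟩
      have := run_lt h hp hz
      have := s.per_le t
      omega⟩ (by
      obtain ⟨t, o, α, β, h1, h2, h3⟩ := hR 0
      exact ⟨_, 0, t, o, α, β, h1, h2, h3, rfl⟩)
  obtain ⟨i, ⟨i1, i2⟩, i3⟩ := Int.exists_least_of_bdd (P := fun i => i0 ≤ i ∧ β < g i)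
    ⟨i0, fun _ h => h.1⟩ ⟨max i0 (β + 1), le_max_left _ _, by have := hl (max i0 (β + 1)); omega⟩
  have i4 : g (i - 1) ≤ β := by
    by_contra h
    have : i ≠ i0 := by rintro rfl; omega
    have := i3 (i - 1) ⟨by omega, by omega⟩
    omega
  obtain ⟨t', o', α', β', s1, s2, s3⟩ := hR i
  have m1 := hmx _ ⟨i, t', o', α', β', s1, s2, s3, rfl⟩
  have m2 := hP _ _ _ _ r1
  have m3 := hP _ _ _ _ s1
  have m4 : i ≤ α := by
    by_contra h
    have := gmono (α - 1) (i - 1) (by omega)
    omega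
  have m5 := gmono (α' - 1) (i - 1 + p) (by omega)
  have m6 := gper (i - 1)
  have m7 := s1.2.2.2
  have m8 := s.lt_f t' (α' - 1 - o')
  have m9 := hmin _ _ (hg (i - 1)).2.1
  have v2 := gtail i
  rw [← seg_shift hz _ _ 1] at v2
  have d1 := dist_seg z (i := α') (j := s.f t' (α' - 1 - o') + o') (i' := i + 1 * p)
    (j' := g (i - 1) + 1 * p) (by omega) (by omega)
  have n1 := run_ne hn s1 (hg (i - 1)).2.1
  have ag : ∀ n, α' ≤ n → n < β → s.w t (n - o) = s.w t' (n - o') := fun n n1 n2 => by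
    rw [r1.2.1 n (by omega) n2, s1.2.1 n n1 (by omega)]
  have wp : ∀ (t : ι) (o n : ℤ), s.w t (n + s.per t - o) = s.w t (n - o) := fun t o n => by
    rw [← s.w_per t (n - o)]; congr 1; ring
  have ne : α' ≤ β → s.w t (β - o) ≠ s.w t' (β - o') := fun h => by
    rw [s1.2.1 β h (by omega)]; exact r1.2.2.1
  by_cases hc : s.σ.SameCycle t' t
  · have : β < α' + s.per t' := by
      by_contra h
      exact ne (by omega) (per_ext (z := fun n => s.w t (n - o)) (z' := fun n => s.w t' (n - o'))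
        (s.per_pos t') (fun n => by rw [← s.per_eq hc, wp]) (wp t' o') (a := α')
        (fun n n1 n2 => ag n n1 (by omega)) β)
    refine hn (Or.inr (Or.inr (Or.inl ⟨_, _, _, _, s1.1, (hg _).1, n1, run_vx s1, v2, ?_⟩)))
    rw [length_seg]; omega
  · have : β < α' + s.per t + s.per t' := by
      by_contra h
      exact ne (by omega) (fw (z := fun n => s.w t (n - o)) (z' := fun n => s.w t' (n - o'))
        (s.per_pos t) (s.per_pos t') (wp t o) (wp t' o') (a := α')
        (fun n n1 n2 => ag n n1 (by omega)) β)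
    obtain ⟨c, c1, -, c3, c4⟩ := exists_col (F := fun c => s.f t (c - o) + o)
      (a := α) (b := max α β) (d := β) (le_max_left _ _) r1.2.2.2
      (by have := s.lt_f t (max α β - o); omega)
    have v3 : s.Vx t (seg z c β) := vx_at (fun n n1 n2 => r1.2.1 n (by omega) n2) c3 c4
    rw [← seg_shift hz _ _ 1] at v3
    have d2 := dist_seg z (i := i + 1 * p) (j := g (i - 1) + 1 * p) (i' := c + 1 * p)
      (j' := β + 1 * p) (by omega) (by omega)
    refine hn (Or.inr (Or.inr (Or.inr ⟨_, _, _, _, _, _, s1.1, (hg _).1, r1.1, n1, hc,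
      fun e => run_ne hn r1 (hg (i - 1)).2.1 e.symm, run_vx s1, v2, v3, ?_⟩)))
    rw [length_seg]; omega

end Sys

end Vale.Agent.P333
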