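import Vale.Agent.P333.Algo

/-! The lower bound: counting occurrences in a superstring. -/

namespace Vale.Agent.P333

open Finset

set_option linter.unusedSectionVars false

variable {A : Type} [DecidableEq A] [Inhabited A]

def Z (u : List A) (q : ℕ) (n : ℤ) : A := u.getD (n % q).toNat default

lemma Z_add (u : List A) (q : ℕ) (n k : ℤ) : Z u q (n + k * q) = Z u q n := by
  simp [Z]

lemma Z_congr (u : List A) (q : ℕ) {n m : ℤ} (k : ℤ) (h : n = m + k * q) : Z u q n = Z u q m := by
  rw [h, Z_add]

lemma zz_eq (u : List A) {q : ℕ} (hq : 0 < q) (a n : ℕ) : zz u q a n = Z u q (n - a - 1) := by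
  rw [← Z_add u q _ (a + 1), zz, Z]
  congr 1
  have : ((n : ℤ) - a - 1 + (a + 1) * q) = ((n + (a + 1) * (q - 1) : ℕ) : ℤ) := by
    push_cast [Nat.cast_sub hq]; ring
  rw [this, ← Int.natCast_mod, Int.toNat_natCast]

lemma brk_iff (u : List A) {q : ℕ} (hq : 0 < q) (a l : ℕ) (v : List A) :
    brk u q a l v = true ↔ v.getD 0 default ≠ Z u q (-a - 1) ∧
      (∀ n : ℕ, 1 ≤ n → n ≤ a + l → v.getD n default = Z u q (n - a - 1)) ∧
      ∃ n : ℕ, n < v.length ∧ 1 ≤ n ∧ v.getD n default ≠ Z u q (n - a - 1) := by
  simp only [brk, zz_eq u hq, Bool.and_eq_true, Bool.not_eq_true', decide_eq_false_iff_not,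
    List.all_eq_true, List.mem_range, decide_eq_true_eq, List.any_eq_true, Nat.ble_eq, and_assoc,
    Nat.cast_zero, zero_sub]
  refine and_congr_right fun _ => and_congr_left fun _ => ⟨fun h n h1 h2 => ?_, fun h n hn => ?_⟩
  · obtain ⟨n, rfl⟩ := Nat.exists_eq_add_of_le' h1
    exact h n (by omega)
  · exact h _ (by omega) (by omega)

lemma prefix_iff {x v : List A} : x <+: v ↔
    x.length ≤ v.length ∧ ∀ n < x.length, v.getD n default = x.getD n default := by
  constructor
  · rintro ⟨r, rfl⟩
    exact ⟨by simp, fun n hn => List.getD_append _ _ _ _ hn⟩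
  · rintro ⟨h1, h2⟩
    rw [List.prefix_iff_eq_take]
    refine List.ext_getElem (by simp [h1]) fun n i1 i2 => ?_
    have := h2 n i1
    rw [List.getD_eq_getElem _ _ i1, List.getD_eq_getElem _ _ (by omega)] at this
    simp [this]

lemma getD_drop (T : List A) (k n : ℕ) : (T.drop k).getD n default = T.getD (k + n) default := by
  simp [List.getD_eq_getElem?_getD]

lemma getD_Z {u : List A} {q : ℕ} (hq : 0 < q) (hper : u.drop q <+: u) (n : ℕ)
    (hn : n < u.length) : u.getD n default = Z u q n := by
  induction n using Nat.strong_induction_on with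
  | _ n ih =>
    by_cases h : n < q
    · rw [Z, ← Int.natCast_mod, Int.toNat_natCast, Nat.mod_eq_of_lt h]
    · obtain ⟨m, rfl⟩ := Nat.exists_eq_add_of_le (not_lt.1 h)
      rw [← getD_drop, ← (prefix_iff.1 hper).2 m (by simp; omega), ih m (by omega) (by omega)]
      exact Z_congr u q (-1) (by push_cast; ring)

def Mono (P : List A → Bool) : Prop := ∀ v v', v <+: v' → P v = true → P v' = true

def occ (T : List A) (P : List A → Bool) : ℕ :=
  ((range T.length).filter fun k => P (T.drop k) = true).card

def Dom (D : List (List A)) (T : List A) : Prop := ∀ P, Mono P → D.countP P ≤ occ T P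

lemma mono_pre (x : List A) : Mono (pre x) := fun _ _ h h' =>
  pre_iff.2 ((pre_iff.1 h').trans h)

lemma brk_len {u : List A} {q : ℕ} (hq : 0 < q) {a l : ℕ} {v : List A}
    (h : brk u q a l v = true) : a + l + 1 < v.length := by
  obtain ⟨-, h2, n, h3, h4, h5⟩ := (brk_iff u hq a l v).1 h
  by_contra h6
  exact h5 (h2 n h4 (by omega))

lemma mono_brk (u : List A) {q : ℕ} (hq : 0 < q) (a l : ℕ) : Mono (brk u q a l) := by
  intro v v' hv h
  have hl := brk_len hq h
  obtain ⟨e1, e2⟩ := prefix_iff.1 hv
  obtain ⟨h1, h2, n, h3, h4, h5⟩ := (brk_iff u hq a l v).1 h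
  refine (brk_iff u hq a l v').2 ⟨by rwa [e2 0 (by omega)], fun m m1 m2 => ?_, n, by omega, h4,
    by rwa [e2 n h3]⟩
  rw [e2 m (by omega), h2 m m1 m2]

lemma countP_split {β : Type} (D : List β) (P Q : β → Bool) :
    D.countP P = D.countP (fun v => P v && Q v) + D.countP fun v => P v && !Q v := by
  induction D with
  | nil => rfl
  | cons a D ih => cases h : P a <;> cases h' : Q a <;> simp [List.countP_cons, h, h', ih] <;> omega

lemma occ_split (T : List A) (P Q : List A → Bool) :
    occ T P = occ T (fun v => P v && Q v) + occ T fun v => P v && !Q v := by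
  rw [occ, ← card_filter_add_card_filter_not (p := fun k => Q (T.drop k) = true), filter_filter,
    filter_filter, occ, occ]
  simp

lemma occ_mono (T : List A) {P Q : List A → Bool} (h : ∀ v, P v = true → Q v = true) :
    occ T P ≤ occ T Q := card_le_card (monotone_filter_right _ fun _ _ => h _)

section key

variable {u : List A} {q : ℕ} (T : List A)

lemma pre_drop_iff {x : List A} (hx : ∀ n < x.length, x.getD n default = Z u q n) (h0 : x ≠ [])
    (k : ℕ) : pre x (T.drop k) = true ↔
      k + x.length ≤ T.length ∧ ∀ n < x.length, T.getD (k + n) default = Z u q n := by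
  have := List.length_pos_iff.2 h0
  rw [pre_iff, prefix_iff, List.length_drop]
  refine and_congr (by omega) (forall₂_congr fun n hn => by rw [getD_drop, hx n hn])

lemma brk_drop_iff (hq : 0 < q) (a l k : ℕ) : brk u q a l (T.drop k) = true ↔
    T.getD k default ≠ Z u q (-a - 1) ∧
      (∀ n : ℕ, 1 ≤ n → n ≤ a + l → T.getD (k + n) default = Z u q (n - a - 1)) ∧
      ∃ n : ℕ, k + n < T.length ∧ 1 ≤ n ∧ T.getD (k + n) default ≠ Z u q (n - a - 1) := by
  simp only [brk_iff u hq, getD_drop, List.length_drop, add_zero, Nat.lt_sub_iff_add_lt']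

lemma occ_A (hq : 0 < q) (hl : q < u.length) (hper : u.drop q <+: u) (E : Finset ℕ)
    (hE : ∀ k ∈ E, pre u (T.drop k) = true ∧ (∀ k', pre u (T.drop k') = true → k ≠ k' + q) ∧
      ∀ a k', brk u q a u.length (T.drop k') = true → k ≠ k' + (1 + a)) :
    occ T (pre u) + ∑ a ∈ range q, occ T (brk u q a (u.length - q)) + E.card
      ≤ occ T (pre (u.drop q)) := by
  have hu := getD_Z hq hper
  have hu0 : u ≠ [] := by rintro rfl; simp at hl
  have hx : ∀ n < (u.drop q).length, (u.drop q).getD n default = Z u q n := fun n hn => by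
    rw [getD_drop, hu _ (by simp at hn; omega)]
    exact Z_congr u q 1 (by push_cast; ring)
  have hx0 : u.drop q ≠ [] := by simpa using hl
  set X := (range T.length).filter fun k => pre u (T.drop k) = true
  set B := fun a => (range T.length).filter fun k => brk u q a (u.length - q) (T.drop k) = true
  have e1 : occ T (pre u) = (X.image (· + q)).card :=
    (card_image_of_injective _ (add_left_injective q)).symm
  have e2 : ∑ a ∈ range q, occ T (brk u q a (u.length - q))
      = ((range q).biUnion fun a => (B a).image (· + (1 + a))).card := by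
    rw [card_biUnion]
    · exact sum_congr rfl fun a _ => (card_image_of_injective _ (add_left_injective _)).symm
    · have : ∀ a a', a < a' → Disjoint ((B a).image (· + (1 + a))) ((B a').image (· + (1 + a'))) := by
        intro a a' h
        simp only [disjoint_left, mem_image, B, mem_filter, brk_drop_iff T hq]
        rintro _ ⟨k, ⟨-, h1, -⟩, rfl⟩ ⟨k', ⟨-, -, h2, -⟩, e⟩
        have := h2 (a' - a) (by omega) (by omega)
        rw [show k' + (a' - a) = k by omega] at this
        exact h1 (this.trans (congrArg _ (by push_cast [Nat.cast_sub h.le]; ring)))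
      intro a _ a' _ h
      rcases lt_or_gt_of_ne h with h | h
      exacts [this _ _ h, (this _ _ h).symm]
  rw [e1, e2, ← card_union_of_disjoint, ← card_union_of_disjoint]
  · refine card_le_card fun k hk => ?_
    simp only [mem_union, mem_image, mem_biUnion, X, B, mem_filter, brk_drop_iff T hq,
      pre_drop_iff T hu hu0, mem_range] at hk
    rw [mem_filter, pre_drop_iff T hx hx0, mem_range, List.length_drop]
    rcases hk with (⟨k, ⟨-, h1, h2⟩, rfl⟩ | ⟨a, -, k, ⟨-, -, h1, n, h2, h3, h4⟩, rfl⟩) | hk
    · refine ⟨by omega, by omega, fun n hn => ?_⟩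
      rw [add_assoc, h2 _ (by omega)]
      exact Z_congr u q 1 (by push_cast; ring)
    · have : ¬n ≤ a + (u.length - q) := fun h => h4 (h1 n h3 h)
      refine ⟨by omega, by omega, fun n hn => ?_⟩
      rw [add_assoc, h1 _ (by omega) (by omega)]
      exact congrArg _ (by push_cast; ring)
    · obtain ⟨h1, h2⟩ := (pre_drop_iff T hu hu0 k).1 (hE k hk).1
      exact ⟨by omega, by omega, fun n hn => h2 n (by omega)⟩
  · simp only [disjoint_left, mem_union, mem_image, mem_biUnion, X, B, mem_filter]
    rintro _ (⟨k, ⟨-, h1⟩, rfl⟩ | ⟨a, -, k, ⟨-, h1⟩, rfl⟩) hk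
    · exact (hE _ hk).2.1 k h1 rfl
    · refine (hE _ hk).2.2 a k ?_ rfl
      obtain ⟨-, h2⟩ := (pre_drop_iff T hu hu0 _).1 (hE _ hk).1
      rw [brk_drop_iff T hq] at h1 ⊢
      refine ⟨h1.1, fun n n1 n2 => ?_, h1.2.2⟩
      by_cases h : n ≤ a
      · exact h1.2.1 n n1 (by omega)
      · have := h2 (n - (1 + a)) (by omega)
        rw [show k + (1 + a) + (n - (1 + a)) = k + n by omega] at this
        exact this.trans (congrArg _ (by push_cast [Nat.cast_sub (show 1 + a ≤ n by omega)]; ring))
  · simp only [disjoint_left, mem_image, mem_biUnion, X, B, mem_filter, brk_drop_iff T hq,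
      pre_drop_iff T hu hu0, mem_range]
    rintro _ ⟨k, ⟨-, -, h1⟩, rfl⟩ ⟨a, ha, k', ⟨-, h2, -⟩, e⟩
    have := h1 (q - (1 + a)) (by omega)
    rw [show k + (q - (1 + a)) = k' by omega] at this
    exact h2 (this.trans (Z_congr u q 1
      (by push_cast [Nat.cast_sub (show 1 + a ≤ q by omega)]; ring)))

lemma brk_mod (hq : 0 < q) (a : ℕ) {v : List A} (h : brk u q a u.length v = true) :
    brk u q (a % q) (u.length - q) v = true := by
  have e : ∀ n : ℤ, Z u q (n - (a % q : ℕ) - 1) = Z u q (n - a - 1) := fun n =>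
    Z_congr u q (a / q : ℕ) (by
      have : (a : ℤ) = (a % q : ℕ) + (a / q : ℕ) * q := by exact_mod_cast (Nat.mod_add_div' a q).symm
      linarith)
  have e0 := e 0
  rw [zero_sub, zero_sub] at e0
  rw [brk_iff u hq] at h ⊢
  simp only [e, e0]
  have := Nat.mod_le a q
  exact ⟨h.1, fun n n1 n2 => h.2.1 n n1 (by omega), h.2.2⟩

lemma bsum_eq (D : List (List A)) (l m : ℕ) :
    bsum D u q l m = ∑ a ∈ range m, D.countP (brk u q a l) := by
  rw [bsum, Finset.sum_range, ← List.sum_ofFn]
  congr 1
  exact List.ext_getElem (by simp) (by simp)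

theorem occ_key (hq : 0 < q) (hl : q < u.length) (hper : u.drop q <+: u) {D : List (List A)}
    (hD : Dom D T) {N : ℕ} (hN : ∀ v ∈ D, v.length ≤ N) (h : bsum D u q u.length N < cnt D u) :
    cnt D u + bsum D u q (u.length - q) q + 1 ≤ occ T (pre (u.drop q)) := by
  have hu := getD_Z hq hper
  have hu0 : u ≠ [] := by rintro rfl; simp at hl
  have h1 : cnt D u ≤ occ T (pre u) := hD _ (mono_pre u)
  have h2 : ∀ a l, D.countP (brk u q a l) ≤ occ T (brk u q a l) := fun a l => hD _ (mono_brk u hq a l)
  rw [bsum_eq] at h ⊢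
  by_cases hc : ∃ k, pre u (T.drop k) = true ∧
      ∀ a k', brk u q a u.length (T.drop k') = true → k ≠ k' + (1 + a)
  · classical
    have hk := Nat.find_spec hc
    refine le_trans ?_ (occ_A T hq hl hper {Nat.find hc} fun k hk' => ?_)
    · rw [card_singleton]
      exact Nat.add_le_add_right (Nat.add_le_add h1 (sum_le_sum fun a _ => h2 a _)) 1
    · rw [mem_singleton.1 hk']
      refine ⟨hk.1, fun k' h3 e => Nat.find_min hc (show k' < Nat.find hc by omega)
        ⟨h3, fun a k'' h4 e' => hk.2 (a + q) k'' ?_ (by omega)⟩, hk.2⟩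
      obtain ⟨-, h5⟩ := (pre_drop_iff T hu hu0 _).1 hk.1
      have e1 : ∀ n : ℤ, Z u q (n - (a + q : ℕ) - 1) = Z u q (n - a - 1) := fun n =>
        Z_congr u q (-1) (by push_cast; ring)
      have e0 := e1 0
      rw [zero_sub, zero_sub] at e0
      rw [brk_drop_iff T hq] at h4 ⊢
      simp only [e1, e0]
      refine ⟨h4.1, fun n n1 n2 => ?_, h4.2.2⟩
      by_cases h : n ≤ a + u.length
      · exact h4.2.1 n n1 h
      · have := h5 (n - (1 + a + q)) (by omega)
        rw [show Nat.find hc + (n - (1 + a + q)) = k'' + n by omega] at this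
        exact this.trans (Z_congr u q (-1)
          (by push_cast [Nat.cast_sub (show 1 + a + q ≤ n by omega)]; ring))
  push Not at hc
  refine le_trans ?_ (occ_A T hq hl hper ∅ (by simp))
  have h3 : occ T (pre u) ≤ ∑ a ∈ range (T.length + N), occ T (brk u q a u.length) := by
    refine le_trans (card_le_card (t := (range (T.length + N)).biUnion fun a =>
      ((range T.length).filter fun k => brk u q a u.length (T.drop k) = true).image (· + (1 + a)))
      fun k hk => ?_) (card_biUnion_le.trans (sum_le_sum fun a _ => card_image_le))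
    simp only [mem_filter, mem_range, mem_biUnion, mem_image] at hk ⊢
    obtain ⟨a, k', h4, rfl⟩ := hc k hk.2
    exact ⟨a, by omega, k', ⟨by omega, h4⟩, rfl⟩
  obtain ⟨a, -, ha⟩ : ∃ a ∈ range (T.length + N),
      D.countP (brk u q a u.length) < occ T (brk u q a u.length) := by
    refine exists_lt_of_sum_lt (lt_of_eq_of_lt ?_ (h.trans_le (h1.trans h3)))
    refine (sum_subset (range_mono (by omega)) fun a _ ha => List.countP_eq_zero.2 fun v hv h4 => ?_).symm
    have := brk_len hq h4
    have := hN v hv
    simp at ha; omega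
  have h4 : D.countP (brk u q (a % q) (u.length - q)) < occ T (brk u q (a % q) (u.length - q)) := by
    have e : (fun v => brk u q (a % q) (u.length - q) v && brk u q a u.length v)
        = brk u q a u.length := funext fun v => by
      cases h : brk u q a u.length v
      · simp
      · simp [brk_mod hq a h]
    rw [countP_split _ _ (brk u q a u.length), occ_split _ _ (brk u q a u.length), e]
    refine Nat.add_lt_add_of_lt_of_le ha (hD _ fun v v' hv h => ?_)
    simp only [Bool.and_eq_true, Bool.not_eq_true', ← Bool.not_eq_true] at h ⊢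
    refine ⟨mono_brk u hq _ _ v v' hv h.1, fun h5 => h.2 ?_⟩
    obtain ⟨e1, e2⟩ := prefix_iff.1 hv
    obtain ⟨-, -, n, n1, n2, n3⟩ := (brk_iff u hq _ _ v).1 h.1
    rw [brk_iff u hq] at h5 ⊢
    have n4 : v.getD n default ≠ Z u q (n - a - 1) := by
      rwa [← Z_congr u q (a / q : ℕ) (show (n : ℤ) - (a % q : ℕ) - 1 = n - a - 1 + (a / q : ℕ) * q by
        have : (a : ℤ) = (a % q : ℕ) + (a / q : ℕ) * q := by
          exact_mod_cast (Nat.mod_add_div' a q).symm
        linarith)]
    have n5 : ¬n ≤ a + u.length := fun h6 => n4 (by rw [← e2 n n1]; exact h5.2.1 n n2 h6)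
    exact ⟨by rw [← e2 0 (by omega)]; exact h5.1,
      fun m m1 m2 => by rw [← e2 m (by omega)]; exact h5.2.1 m m1 m2, n, n1, n2, n4⟩
  have := sum_lt_sum (s := range q) (fun a _ => h2 a (u.length - q))
    ⟨a % q, mem_range.2 (Nat.mod_lt _ hq), h4⟩
  rw [card_empty]
  omega

end key

end Vale.Agent.P333
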