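import Vale.Agent.P333.Plane

/-! The greedy matching of tails to tokens is a permutation. -/

namespace Vale.Agent.P333

open Finset

set_option linter.unusedSectionVars false

variable {A : Type} [DecidableEq A] [Inhabited A]

lemma countP_range (D : List (List A)) (P : List A → Bool) :
    D.countP P = (List.range D.length).countP fun k => P (D.getD k []) := by
  have : D = (List.range D.length).map fun k => D.getD k [] :=
    List.ext_getElem (by simp) fun i h1 h2 => by simp [h1]
  conv_lhs => rw [this, List.countP_map]
  rfl

lemma countP_card {n : ℕ} (P : ℕ → Bool) :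
    (List.range n).countP P = (univ.filter fun v : Fin n => P v = true).card := by
  rw [List.countP_eq_length_filter, ← List.toFinset_card_of_nodup (List.nodup_range.filter _),
    ← card_image_of_injective _ Fin.val_injective]
  congr 1
  ext k
  simp only [List.mem_toFinset, List.mem_filter, List.mem_range, mem_image, mem_filter, mem_univ,
    true_and]
  exact ⟨fun h => ⟨⟨k, h.1⟩, h.2, rfl⟩, by rintro ⟨a, h, rfl⟩; exact ⟨a.2, h⟩⟩

lemma count_forall₂ {D : List (List A)} {x : List A} {ys : List (List A)} {out : List ℕ}
    (h : List.Forall₂ (fun t k => k < D.length ∧ t.tail <+: D.getD k []) ys out)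
    (hl : ∀ y ∈ ys, x.length ≤ y.tail.length) :
    (out.countP fun k => pre x (D.getD k [])) ≤ ys.countP fun v => pre x v.tail := by
  induction h with
  | nil => simp
  | @cons y k ys out h _ ih =>
    have := ih fun y hy => hl y (by simp [hy])
    rw [List.countP_cons, List.countP_cons]
    split_ifs with h1 h2 <;> try omega
    exact absurd (pre_iff.2 (List.prefix_of_prefix_length_le (pre_iff.1 h1) h.2
      (hl y (by simp)))) h2

lemma mtch_aux {D : List (List A)} (hs : D.Pairwise fun a b => b.length ≤ a.length)
    (hc : ∀ x, D.countP (fun v => pre x v.tail) ≤ cnt D x) (ys : List (List A)) (hy : ys <+: D) :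
    (ys.foldl (stepM D) []).Nodup ∧ List.Forall₂ (fun t k => k < D.length ∧ t.tail <+: D.getD k [])
      ys (ys.foldl (stepM D) []) := by
  induction ys using List.reverseRecOn with
  | nil => simp
  | append_singleton ys t ih =>
    obtain ⟨i1, i2⟩ := ih ((List.prefix_append _ _).trans hy)
    rw [List.foldl_append, List.foldl_cons, List.foldl_nil]
    generalize ys.foldl (stepM D) [] = out at i1 i2
    rw [stepM]
    generalize hL : (List.range D.length).filter (fun k =>
      !(out.any fun i => Nat.beq i k) && pre t.tail (D.getD k [])) = L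
    have hm : ∀ k, k ∈ L ↔ k < D.length ∧ k ∉ out ∧ t.tail <+: D.getD k [] := fun k => by
      simp [← hL, pre_iff]
      exact fun _ _ => ⟨fun h h' => h k h' rfl, fun h x hx e => h (e ▸ hx)⟩
    cases L with
    | cons k L =>
      obtain ⟨k1, k2, k3⟩ := (hm k).1 (by simp)
      refine ⟨?_, List.rel_append i2 (List.Forall₂.cons ⟨k1, k3⟩ List.Forall₂.nil)⟩
      simpa [List.nodup_append, i1] using fun a ha (e : a = k) => k2 (e ▸ ha)
    | nil =>
      exfalso
      have h1 := count_forall₂ (x := t.tail) i2 fun y h => by
        have := (List.pairwise_append.1 (hs.sublist hy.sublist)).2.2 y h t (by simp)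
        simp only [List.length_tail]; omega
      have h2 := hy.sublist.countP_le (p := fun v => pre t.tail v.tail)
      rw [List.countP_append, List.countP_singleton, if_pos (pre_iff.2 (by rfl))] at h2
      have h3 := hc t.tail
      rw [cnt, countP_range D (pre t.tail), List.countP_eq_length_filter (l := List.range _)] at h3
      rw [List.countP_eq_length_filter (l := out)] at h1
      have h4 := (List.subperm_of_subset (l₂ := out.filter fun k => pre t.tail (D.getD k []))
        (List.nodup_range.filter fun k => pre t.tail (D.getD k [])) fun k hk => by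
          simp only [List.mem_filter, List.mem_range] at hk ⊢
          refine ⟨?_, hk.2⟩
          by_contra h
          simpa using (hm k).2 ⟨hk.1, h, pre_iff.1 hk.2⟩).length_le
      omega

theorem exists_sys {D : List (List A)} (h0 : ∀ v ∈ D, v ≠ [])
    (hs : D.Pairwise fun a b => b.length ≤ a.length)
    (hc : ∀ x, D.countP (fun v => pre x v.tail) ≤ cnt D x) :
    ∃ s : Sys A (Fin D.length), (∀ i, s.wd i = D.getD i []) ∧
      ∀ i, (s.σ i : ℕ) = (mtch D).getD i 0 := by
  obtain ⟨h1, h2⟩ := mtch_aux hs hc D (List.prefix_refl _)
  change (mtch D).Nodup at h1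
  change List.Forall₂ _ D (mtch D) at h2
  generalize mtch D = M at h1 h2
  have hl := h2.length_eq
  have h3 : ∀ i : Fin D.length, M.getD i 0 < D.length ∧
      (D.getD i []).tail <+: D.getD (M.getD i 0) [] := fun i => by
    rw [List.getD_eq_getElem _ _ i.2, List.getD_eq_getElem _ _ (hl ▸ i.2)]
    exact List.Forall₂.get h2 i.2 (hl ▸ i.2)
  refine ⟨⟨fun i => D.getD i [], Equiv.ofBijective (fun i => ⟨M.getD i 0, (h3 i).1⟩)
    (Finite.injective_iff_bijective.1 fun i j e => ?_), fun i => ?_, fun i => (h3 i).2⟩,
    fun _ => rfl, fun _ => rfl⟩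
  · have := congrArg Fin.val e
    simp only at this
    rw [List.getD_eq_getElem _ _ (hl ▸ i.2), List.getD_eq_getElem _ _ (hl ▸ j.2)] at this
    exact Fin.ext ((List.Nodup.getElem_inj_iff h1).1 this)
  · rw [List.getD_eq_getElem _ _ i.2]
    exact h0 _ (List.getElem_mem _)

lemma Sys.Q_of {D : List (List A)} {N : ℕ} (s : Sys A (Fin D.length))
    (hw : ∀ i, s.wd i = D.getD i [])
    (h : ∀ u ∈ D, ∀ q, 0 < q → q < u.length → u.drop q <+: u → bsum D u q u.length N < cnt D u →
      cnt D u + bsum D u q (u.length - q) q < cnt D (u.drop q)) : s.Q N := by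
  have e : ∀ P : List A → Bool,
      (univ.filter fun v => P (s.wd v) = true).card = D.countP P := fun P => by
    rw [countP_range, countP_card]
    simp only [hw]
  have e' : ∀ x, (univ.filter fun v => x <+: s.wd v).card = cnt D x := fun x => by
    rw [cnt, ← e]
    simp only [pre_iff]
  intro t q h1 h2 h3
  simp only [e, e', ← bsum_eq]
  refine h _ ?_ q h1 h2 h3
  rw [hw, List.getD_eq_getElem _ _ t.2]
  exact List.getElem_mem _

end Vale.Agent.P333
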