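import Vale.Agent.P333.Low

/-! Token systems and their planes. -/

namespace Vale.Agent.P333

open Finset

set_option linter.unusedSectionVars false

variable {A : Type} [DecidableEq A] [Inhabited A]

def seg (z : ℤ → A) (c d : ℤ) : List A := (List.range (d - c).toNat).map fun m : ℕ => z (c + m)

@[simp] lemma length_seg (z : ℤ → A) (c d : ℤ) : (seg z c d).length = (d - c).toNat := by
  simp [seg]

lemma getD_seg (z : ℤ → A) (c d : ℤ) {n : ℕ} (h : n < (d - c).toNat) :
    (seg z c d).getD n default = z (c + n) := by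
  rw [List.getD_eq_getElem _ _ (by simpa using h)]
  simp [seg]

lemma eq_seg {v : List A} {z : ℤ → A} {c d : ℤ} (h1 : v.length = (d - c).toNat)
    (h2 : ∀ n < v.length, v.getD n default = z (c + n)) : v = seg z c d :=
  List.IsPrefix.eq_of_length (prefix_iff.2 ⟨by simp [h1], fun n hn => by
    rw [getD_seg _ _ _ (h1 ▸ hn), h2 n hn]⟩) (by simp [h1])

lemma seg_congr {z z' : ℤ → A} {c d c' d' : ℤ} (h : d - c = d' - c')
    (h2 : ∀ n, c ≤ n → n < d → z n = z' (n - c + c')) : seg z c d = seg z' c' d' :=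
  eq_seg (by simp [h]) fun n hn => by
    rw [length_seg] at hn
    rw [getD_seg _ _ _ hn, h2 _ (by omega) (by omega)]
    congr 1; ring

lemma seg_prefix (z : ℤ → A) (c : ℤ) {d d' : ℤ} (h : d ≤ d') : seg z c d <+: seg z c d' :=
  prefix_iff.2 ⟨by simp; omega, fun n hn => by
    rw [length_seg] at hn
    rw [getD_seg _ _ _ hn, getD_seg _ _ _ (by omega)]⟩

lemma le_ov {a b : List A} {k : ℕ} (h1 : k ≤ a.length) (h2 : k ≤ b.length)
    (h : a.drop (a.length - k) = b.take k) : k ≤ ov a b :=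
  le_maxL (by simp [h, h1]; omega)

lemma dist_seg (z : ℤ → A) {i j i' j' : ℤ} (h1 : i ≤ i') (h2 : j ≤ j') :
    (dist (seg z i j) (seg z i' j') : ℤ) ≤ max (j' - j) 0 := by
  rw [dist, length_seg]
  by_cases h : i' ≤ j
  · have : (j - i').toNat ≤ ov (seg z i j) (seg z i' j') := by
      refine le_ov (by simp; omega) (by simp; omega) ?_
      have e1 : (seg z i j).drop ((seg z i j).length - (j - i').toNat) = seg z i' j :=
        eq_seg (by simp; omega) fun n hn => by
          simp only [List.length_drop, length_seg] at hn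
          rw [getD_drop, length_seg, getD_seg _ _ _ (by omega)]
          congr 1; omega
      rw [e1]
      exact List.prefix_iff_eq_take.1 (seg_prefix z i' h2) |>.trans (by simp)
    omega
  · omega

lemma per_ext {z z' : ℤ → A} {p : ℕ} (hp : 0 < p) (hz : ∀ n, z (n + p) = z n)
    (hz' : ∀ n, z' (n + p) = z' n) {a : ℤ} (h : ∀ n, a ≤ n → n < a + p → z n = z' n) (n : ℤ) :
    z n = z' n := by
  have e : n = (a + (n - a) % p) + ((n - a) / p) * p := by
    have := Int.emod_add_ediv_mul (n - a) p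
    omega
  have h1 := Int.emod_nonneg (n - a) (show (p : ℤ) ≠ 0 by omega)
  have h2 := Int.emod_lt_of_pos (n - a) (show (0 : ℤ) < p by omega)
  have k1 : ∀ m k : ℤ, z (m + k * p) = z m := fun m k => Function.Periodic.int_mul hz k m
  have k2 : ∀ m k : ℤ, z' (m + k * p) = z' m := fun m k => Function.Periodic.int_mul hz' k m
  rw [e, k1, k2, h _ (by omega) (by omega)]

lemma fw {z z' : ℤ → A} {p q : ℕ} (hp : 0 < p) (hq : 0 < q) (hz : ∀ n, z (n + p) = z n)
    (hz' : ∀ n, z' (n + q) = z' n) {a : ℤ} (h : ∀ n, a ≤ n → n < a + p + q → z n = z' n) (n : ℤ) :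
    z n = z' n := by
  refine per_ext hp hz (fun m => ?_) (fun m h1 h2 => h m h1 (by omega)) n
  refine per_ext (z := fun m => z' (m + p)) hq (fun m => ?_) hz' (a := a) (fun m h1 h2 => ?_) m
  · rw [← hz' (m + p)]; congr 1; ring
  · rw [← h _ (by omega) (by omega), hz, h _ h1 (by omega)]

lemma exists_col {F : ℤ → ℤ} {a b d : ℤ} (hab : a ≤ b) (h1 : F (a - 1) ≤ d) (h2 : d ≤ F b) :
    ∃ c, a ≤ c ∧ c ≤ b ∧ F (c - 1) ≤ d ∧ d ≤ F c := by
  obtain ⟨c, ⟨c1, c2⟩, c3⟩ := Int.exists_least_of_bdd (P := fun c => a ≤ c ∧ d ≤ F c)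
    ⟨a, fun _ h => h.1⟩ ⟨b, hab, h2⟩
  refine ⟨c, c1, c3 b ⟨hab, h2⟩, ?_, c2⟩
  rcases c1.eq_or_lt with rfl | h
  · exact h1
  · by_contra h3
    have := c3 (c - 1) ⟨by omega, by omega⟩
    omega

/-- A finite family of nonempty words with a successor permutation. -/
structure Sys (A ι : Type) where
  wd : ι → List A
  σ : Equiv.Perm ι
  ne : ∀ t, wd t ≠ []
  tl : ∀ t, (wd t).tail <+: wd (σ t)

namespace Sys

variable {ι : Type} [Fintype ι] [DecidableEq ι] (s : Sys A ι)

def w (t : ι) (n : ℤ) : A := (s.wd ((s.σ ^ n) t)).getD 0 default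

def f (t : ι) (n : ℤ) : ℤ := n + (s.wd ((s.σ ^ n) t)).length

noncomputable def per (t : ι) : ℕ := Function.minimalPeriod s.σ t

def Vx (t : ι) (v : List A) : Prop :=
  ∃ t', s.σ.SameCycle t t' ∧ (s.wd t').tail <+: v ∧ v <+: s.wd (s.σ t')

lemma zpow_zpow (t : ι) (n k : ℤ) : (s.σ ^ n) ((s.σ ^ k) t) = (s.σ ^ (n + k)) t := by
  rw [zpow_add, Equiv.Perm.mul_apply]

lemma zpow_succ (t : ι) (n : ℤ) : s.σ ((s.σ ^ n) t) = (s.σ ^ (n + 1)) t := by
  rw [add_comm, ← s.zpow_zpow, zpow_one]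

lemma w_zpow (t : ι) (n k : ℤ) : s.w ((s.σ ^ k) t) n = s.w t (n + k) := by
  rw [w, w, zpow_zpow]

lemma f_zpow (t : ι) (n k : ℤ) : s.f ((s.σ ^ k) t) n = s.f t (n + k) - k := by
  rw [f, f, zpow_zpow]; ring

lemma f_zero (t : ι) : s.f t 0 = (s.wd t).length := by simp [f]

lemma len_zpow (t : ι) (k : ℤ) : ((s.wd ((s.σ ^ k) t)).length : ℤ) = s.f t k - k := by
  simp [f]

lemma getD_wd (t : ι) (m : ℕ) (h : m < (s.wd t).length) : (s.wd t).getD m default = s.w t m := by
  induction m generalizing t with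
  | zero => simp [w]
  | succ m ih =>
    obtain ⟨h1, h2⟩ := prefix_iff.1 (s.tl t)
    rw [List.length_tail] at h1 h2
    have := s.w_zpow t m 1
    rw [zpow_one] at this
    rw [add_comm, ← getD_drop, List.drop_one, ← h2 m (by omega), ih _ (by omega), this]
    congr 1; push_cast; ring

lemma lt_f (t : ι) (n : ℤ) : n < s.f t n := by
  have := List.length_pos_iff.2 (s.ne ((s.σ ^ n) t))
  rw [f]; omega

lemma f_mono (t : ι) : Monotone (s.f t) := monotone_int_of_le_succ fun n => by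
  have := (s.tl ((s.σ ^ n) t)).length_le
  have h := List.length_pos_iff.2 (s.ne ((s.σ ^ n) t))
  rw [List.length_tail, zpow_succ] at this
  simp only [f]; omega

lemma wd_eq (t : ι) (n : ℤ) : s.wd ((s.σ ^ n) t) = seg (s.w t) n (s.f t n) :=
  eq_seg (by simp [f]) fun m hm => by rw [s.getD_wd _ m hm, w_zpow, add_comm]

lemma vx_seg (t : ι) {c d : ℤ} (h1 : s.f t (c - 1) ≤ d) (h2 : d ≤ s.f t c) :
    s.Vx t (seg (s.w t) c d) := by
  refine ⟨(s.σ ^ (c - 1)) t, ⟨_, rfl⟩, ?_, ?_⟩
  · refine List.IsPrefix.trans (l₂ := seg (s.w t) c (s.f t (c - 1))) ?_ (seg_prefix _ _ h1)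
    rw [eq_seg (v := (s.wd ((s.σ ^ (c - 1)) t)).tail) (z := s.w t) (c := c) (d := s.f t (c - 1))]
    · simp only [List.length_tail, f]; omega
    · intro n hn
      rw [List.length_tail] at hn
      rw [← List.drop_one, getD_drop, s.getD_wd _ _ (by omega), w_zpow]
      congr 1; push_cast; ring
  · rw [zpow_succ, sub_add_cancel, wd_eq]
    exact seg_prefix _ _ h2

lemma per_pos (t : ι) : 0 < s.per t :=
  Function.minimalPeriod_pos_of_mem_periodicPts (s.σ.injective.mem_periodicPts t)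

lemma per_le (t : ι) : s.per t ≤ Fintype.card ι := Function.minimalPeriod_le_card

lemma pow_per (t : ι) : (s.σ ^ (s.per t : ℤ)) t = t := by
  rw [zpow_natCast, ← Equiv.Perm.iterate_eq_pow]
  exact Function.iterate_minimalPeriod

lemma w_per (t : ι) (n : ℤ) : s.w t (n + s.per t) = s.w t n := by
  rw [← w_zpow, pow_per]

lemma f_per (t : ι) (n : ℤ) : s.f t (n + s.per t) = s.f t n + s.per t := by
  have := s.f_zpow t n (s.per t)
  rw [pow_per] at this
  omega

lemma per_eq {t t' : ι} (h : s.σ.SameCycle t t') : s.per t' = s.per t := by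
  obtain ⟨n, -, rfl⟩ := h.exists_pow_eq'
  rw [← Equiv.Perm.iterate_eq_pow]
  exact Function.minimalPeriod_apply_iterate (s.σ.injective.mem_periodicPts t) n

lemma prefix_wd {x : List A} {t : ι} {k : ℤ} : x <+: s.wd ((s.σ ^ k) t) ↔
    k + x.length ≤ s.f t k ∧ ∀ n < x.length, s.w t (n + k) = x.getD n default := by
  have := s.len_zpow t k
  rw [prefix_iff]
  constructor
  · exact fun h => ⟨by omega, fun n hn => by rw [← h.2 n hn, s.getD_wd _ _ (by omega), w_zpow]⟩
  · exact fun h => ⟨by omega, fun n hn => by rw [← h.2 n hn, s.getD_wd _ _ (by omega), w_zpow]⟩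

/-- The counting property of the token list. -/
def Q (N : ℕ) : Prop :=
  ∀ t q, 0 < q → q < (s.wd t).length → (s.wd t).drop q <+: s.wd t →
    ∑ a ∈ range N, (univ.filter fun v => brk (s.wd t) q a (s.wd t).length (s.wd v) = true).card
      < (univ.filter fun v => s.wd t <+: s.wd v).card →
    (univ.filter fun v => s.wd t <+: s.wd v).card + ∑ a ∈ range q,
      (univ.filter fun v => brk (s.wd t) q a ((s.wd t).length - q) (s.wd v) = true).card
      < (univ.filter fun v => (s.wd t).drop q <+: s.wd v).card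

lemma brk_w {u : List A} {q : ℕ} (hq : 0 < q) {a l : ℕ} {v : ι} (h : brk u q a l (s.wd v) = true) :
    s.w ((s.σ ^ (a + 1 : ℤ)) v) (-a - 1) ≠ Z u q (-a - 1) ∧
      ∀ n : ℤ, -a ≤ n → n < l → s.w ((s.σ ^ (a + 1 : ℤ)) v) n = Z u q n := by
  have hl := brk_len hq h
  obtain ⟨h1, h2, -⟩ := (brk_iff u hq a l _).1 h
  rw [s.getD_wd _ _ (by omega)] at h1
  refine ⟨by rwa [w_zpow, show -(a : ℤ) - 1 + (a + 1) = (0 : ℕ) by simp], fun n n1 n2 => ?_⟩
  have := h2 (n + (a + 1)).toNat (by omega) (by omega)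
  rw [s.getD_wd _ _ (by omega), Int.toNat_of_nonneg (by omega)] at this
  rw [w_zpow, this]
  congr 1; ring

theorem exists_next {N : ℕ} (hQ : s.Q N) {t : ι} {q : ℕ} (hq : 0 < q) (hl : q < (s.wd t).length)
    (hz : ∀ n, s.w t (n + q) = s.w t n) : ∃ t', (s.wd t).length - q ≤ s.f t' 0 ∧
      (((∀ n, s.w t' n = s.w t n) ∧ s.f t' (-q) < (s.wd t).length - q) ∨
      ∃ α β : ℤ, α ≤ 0 ∧ (s.wd t).length - q ≤ β ∧ (∀ n, α ≤ n → n < β → s.w t' n = s.w t n) ∧
        s.w t' β ≠ s.w t β ∧ s.f t' (α - 1) ≤ β) := by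
  have hu1 := s.getD_wd t
  replace hQ := hQ t q hq hl
  generalize hu : s.wd t = u at hu1 hQ hl ⊢
  have hZ : ∀ n, Z u q n = s.w t n := per_ext hq (fun n => by simpa using Z_add u q n 1) hz (a := 0)
    fun n n1 n2 => by
      rw [Z, Int.emod_eq_of_lt n1 (by omega), hu1 _ (by omega), Int.toNat_of_nonneg n1]
  have hx : ∀ n < u.length - q, (u.drop q).getD n default = s.w t n := fun n hn => by
    rw [getD_drop, hu1 _ (by omega), ← hz n]; congr 1; push_cast; ring
  have hper : u.drop q <+: u := prefix_iff.2 ⟨by simp, fun n hn => by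
    rw [List.length_drop] at hn
    rw [hx n hn, hu1 n (by omega)]⟩
  have h1 := hQ hper (by
    rw [← card_sigma]
    refine lt_of_le_of_lt (card_le_card_of_injOn (t := (univ.filter fun v => u <+: s.wd v).erase t)
      (fun x => (s.σ ^ (x.1 + 1 : ℤ)) x.2) (fun x hx => ?_) fun x hx y hy e => ?_)
      (card_erase_lt_of_mem (by simp [hu]))
    · simp only [coe_sigma, Set.mem_sigma_iff, coe_filter, Set.mem_ofPred_eq, mem_univ,
        true_and] at hx
      obtain ⟨b1, b2⟩ := s.brk_w hq hx.2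
      have b3 := brk_len hq hx.2
      have b4 := s.f_mono x.2 (show (0 : ℤ) ≤ x.1 + 1 by omega)
      rw [f_zero] at b4
      simp only [coe_erase, Set.mem_sdiff, coe_filter, mem_univ, true_and, Set.mem_ofPred_eq,
        Set.mem_singleton_iff]
      refine ⟨s.prefix_wd.2 ⟨by omega, fun n hn => ?_⟩, fun e => b1 (by rw [e, hZ])⟩
      rw [← w_zpow, b2 n (by omega) (by omega), hZ, hu1 n hn]
    · simp only [coe_sigma, Set.mem_sigma_iff, coe_filter, Set.mem_ofPred_eq, mem_univ,
        true_and] at hx hy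
      obtain ⟨b1, b2⟩ := s.brk_w hq hx.2
      obtain ⟨c1, c2⟩ := s.brk_w hq hy.2
      obtain ⟨a, v⟩ := x
      obtain ⟨a', v'⟩ := y
      dsimp only at *
      obtain rfl : a = a' := by
        rcases lt_trichotomy a a' with h | h | h
        · exact absurd (e ▸ c2 _ (by omega) (by omega)) b1
        · exact h
        · exact absurd (e ▸ b2 _ (by omega) (by omega)) c1
      rw [(s.σ ^ (a + 1 : ℤ)).injective e])
  obtain ⟨t', t1, t2⟩ := exists_mem_notMem_of_card_lt_card (s := ((univ.filter fun v =>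
    u <+: s.wd v).image (s.σ ^ (q : ℤ))) ∪ (range q).biUnion fun a => (univ.filter fun v =>
      brk u q a (u.length - q) (s.wd v) = true).image (s.σ ^ (a + 1 : ℤ)))
    (lt_of_le_of_lt ((card_union_le _ _).trans (Nat.add_le_add card_image_le
      (card_biUnion_le.trans (sum_le_sum fun a _ => card_image_le)))) h1)
  simp only [mem_filter, mem_univ, true_and, mem_union, mem_image, mem_biUnion, mem_range, not_or,
    not_exists, not_and] at t1 t2
  have t3 := (s.prefix_wd (t := t') (k := 0)).1 (by simpa using t1)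
  simp only [List.length_drop, zero_add, add_zero] at t3
  have t4 : (u.length : ℤ) - q ≤ s.f t' (-q) →
      (∀ n : ℤ, -q ≤ n → n < u.length - q → s.w t' n = s.w t n) → False := fun h1 h2 =>
    t2.1 ((s.σ ^ (-q : ℤ)) t') (s.prefix_wd.2 ⟨by omega, fun n hn => by
      rw [h2 _ (by omega) (by omega), hu1 n hn, ← hz]; congr 1; ring⟩) (by simp)
  refine ⟨t', by omega, ?_⟩
  by_cases hall : ∀ n, s.w t' n = s.w t n
  · exact Or.inl ⟨hall, not_le.1 fun h => t4 h fun n _ _ => hall n⟩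
  obtain ⟨α, ⟨α1, α2⟩, α3⟩ := Int.exists_greatest_of_bdd
    (P := fun a => a ≤ 0 ∧ s.w t' (a - 1) ≠ s.w t (a - 1)) ⟨0, fun _ h => h.1⟩ (by
      by_contra h
      push Not at h
      exact hall (fw (s.per_pos t') hq (s.w_per t') hz (a := -s.per t' - q) fun n _ _ => by
        simpa using h (n + 1) (by omega)))
  obtain ⟨β, ⟨β1, β2⟩, β3⟩ := Int.exists_least_of_bdd
    (P := fun b => 0 ≤ b ∧ s.w t' b ≠ s.w t b) ⟨0, fun _ h => h.1⟩ (by
      by_contra h
      push Not at h
      exact hall (fw (s.per_pos t') hq (s.w_per t') hz (a := 0) fun n n1 _ => h n n1))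
  have β4 : (u.length : ℤ) - q ≤ β := by
    by_contra h
    have := t3.2 β.toNat (by omega)
    rw [hx _ (by omega), Int.toNat_of_nonneg β1] at this
    exact β2 this
  have ag : ∀ n, α ≤ n → n < β → s.w t' n = s.w t n := fun n n1 n2 => by
    by_contra h
    by_cases h0 : 0 ≤ n
    · have := β3 n ⟨h0, h⟩; omega
    · have := α3 (n + 1) ⟨by omega, by simpa using h⟩; omega
  refine Or.inr ⟨α, β, α1, β4, ag, β2, not_lt.1 fun h => ?_⟩
  by_cases hα : α ≤ -q
  · have := s.f_mono t' (show α - 1 ≤ -q by omega)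
    exact t4 (by omega) fun n _ _ => ag n (by omega) (by omega)
  · obtain ⟨a, rfl⟩ : ∃ a : ℕ, α = -a := ⟨(-α).toNat, by omega⟩
    have e := s.len_zpow t' (-a - 1)
    have e2 : ∀ n < (s.wd ((s.σ ^ (-a - 1 : ℤ)) t')).length,
        (s.wd ((s.σ ^ (-a - 1 : ℤ)) t')).getD n default = s.w t' (n - a - 1) := fun n hn => by
      rw [s.getD_wd _ _ hn, w_zpow]; congr 1; ring
    refine t2.2 a (by omega) ((s.σ ^ (-a - 1 : ℤ)) t') ((brk_iff u hq _ _ _).2 ⟨?_, fun n n1 n2 => ?_,
      (β + a + 1).toNat, by omega, by omega, ?_⟩) (by simp [zpow_zpow])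
    · rw [e2 _ (by omega), hZ]; simpa using α2
    · rw [e2 _ (by omega), hZ, ag _ (by omega) (by omega)]
    · rw [e2 _ (by omega), hZ, Int.toNat_of_nonneg (by omega), show β + a + 1 - a - 1 = β by ring]
      exact β2

end Sys

end Vale.Agent.P333
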