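import Vale.Agent.P333.PL
import Vale.Agent.P333.Algo

/-! The algorithm runs in polynomial time. -/

namespace Vale.Agent.P333

open Vale.Agent.PT Ret

abbrev Lt := List Bool

variable {α : Type} [Ctx Bool α] {x u v : α → List Lt} {D : α → List (List Lt)}
  {q a l n m N k j : α → ℕ} {M : α → List ℕ} {t : α → List (List Lt)}

@[fun_prop] theorem pt_eqW (hx : PT Bool x) (hv : PT Bool v) :
    PT Bool fun b => decide (x b = v b) := pt_eq hx hv

@[fun_prop] theorem pt_pre (hx : PT Bool x) (hv : PT Bool v) : PT Bool fun b => pre (x b) (v b) :=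
  pt_eq (by fun_prop) hx

@[fun_prop] theorem pt_cnt (hD : PT Bool D) (hx : PT Bool x) :
    PT Bool fun b => cnt (D b) (x b) := by unfold cnt; fun_prop

@[fun_prop] theorem pt_zz (hu : PT Bool u) (hq : PT Bool q) (ha : PT Bool a) (hn : PT Bool n) :
    PT Bool fun b => zz (u b) (q b) (a b) (n b) := by unfold zz; fun_prop

@[fun_prop] theorem pt_brk (hu : PT Bool u) (hq : PT Bool q) (ha : PT Bool a) (hl : PT Bool l)
    (hv : PT Bool v) : PT Bool fun b => brk (u b) (q b) (a b) (l b) (v b) :=
  PT.and' (PT.and' (PT.not' (pt_eqB (by fun_prop) (by fun_prop)))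
    (pt_all (by fun_prop) (pt_eqB (by fun_prop) (by fun_prop))))
    (pt_any (by fun_prop) (PT.and' (by fun_prop) (PT.not' (pt_eqB (by fun_prop) (by fun_prop)))))

@[fun_prop] theorem pt_bsum (hD : PT Bool D) (hu : PT Bool u) (hq : PT Bool q) (hl : PT Bool l)
    (hm : PT Bool m) : PT Bool fun b => bsum (D b) (u b) (q b) (l b) (m b) := by
  unfold bsum; fun_prop

@[fun_prop] theorem pt_qb (hN : PT Bool N) (hD : PT Bool D) (hx : PT Bool x) (hu : PT Bool u) :
    PT Bool fun b => qb (N b) (D b) (x b) (u b) :=
  PT.cond' (PT.and' (PT.and' (pt_eqW (by fun_prop) hx) (by fun_prop)) (by fun_prop))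
    (by fun_prop) (by fun_prop)

@[fun_prop] theorem pt_maxL (hM : PT Bool M) : PT Bool fun b => maxL (M b) :=
  pt_foldl hM (PT.const 0) (fun _ => max) (by fun_prop) (fun b => (M b).sum) (by fun_prop)
    fun b c d hd => by
      have := List.le_sum_of_mem hd
      simp only [pack, List.length_replicate]
      omega

@[fun_prop] theorem pt_tgt (hN : PT Bool N) (hD : PT Bool D) (hx : PT Bool x) :
    PT Bool fun b => tgt (N b) (D b) (x b) := by unfold tgt; fun_prop

@[fun_prop] theorem pt_longer (hD : PT Bool D) (hx : PT Bool x) :
    PT Bool fun b => longer (D b) (x b) := by unfold longer; fun_prop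

@[fun_prop] theorem pt_stepD (hN : PT Bool N) (hD : PT Bool D) (hx : PT Bool x) :
    PT Bool fun b => stepD (N b) (D b) (x b) := by unfold stepD; fun_prop

@[fun_prop] theorem pt_tot (hD : PT Bool D) : PT Bool fun b => tot (D b) := by
  unfold tot; fun_prop

@[fun_prop] theorem pt_subs (hD : PT Bool D) : PT Bool fun b => subs (D b) := by
  unfold subs; fun_prop

lemma esc_le {β : Type} [Ctx Bool β] [Ret β] {l : List β} {c : β} (h : c ∈ l) :
    (esc (pack c)).length ≤ (encL l).length := by
  obtain ⟨r, s, rfl⟩ := List.append_of_mem h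
  simp only [encL, List.flatMap_append, List.flatMap_cons, List.length_append]
  omega

lemma encL_append {β : Type} [Ctx Bool β] [Ret β] (l r : List β) :
    (encL (l ++ r)).length = (encL l).length + (encL r).length := by simp [encL]

@[fun_prop] theorem pt_toks (hD : PT Bool D) : PT Bool fun b => toks (D b) :=
  pt_foldl (pt_subs hD) (PT.const []) (fun b => stepD (tot (D b))) (by fun_prop)
    (fun b => tot (D b) * (encL (subs (D b))).length)
    ((pt_tot hD).mul (ptL_iff.1 (pt_subs hD)).length) fun b c d hd => by
      change (encL _).length ≤ (encL _).length + _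
      rw [stepD, encL_append]
      refine Nat.add_le_add_left ?_ _
      rw [encL, List.length_flatMap, List.map_replicate, List.sum_replicate, smul_eq_mul]
      exact Nat.mul_le_mul (min_le_left _ _) (esc_le hd)

@[fun_prop] theorem pt_stepM (hD : PT Bool D) (hM : PT Bool M) (hx : PT Bool x) :
    PT Bool fun b => stepM (D b) (M b) (x b) := by unfold stepM; fun_prop

lemma getD_filter_le (n : ℕ) (p : ℕ → Bool) : ((List.range n).filter p).getD 0 0 ≤ n := by
  cases h : (List.range n).filter p with
  | nil => simp
  | cons a l =>
    have : a ∈ (List.range n).filter p := by simp [h]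
    simp only [List.mem_filter, List.mem_range] at this
    exact this.1.le

@[fun_prop] theorem pt_mtch (hD : PT Bool D) : PT Bool fun b => mtch (D b) :=
  pt_foldl hD (PT.const []) (fun b => stepM (D b)) (by fun_prop)
    (fun b => 2 * (D b).length + 1) (by fun_prop) fun b c d _ => by
      change (encL _).length ≤ (encL _).length + _
      rw [stepM, encL_append]
      refine Nat.add_le_add_left ?_ _
      simp only [encL, List.flatMap_cons, List.flatMap_nil, List.append_nil, length_esc, pack,
        List.length_replicate]
      have := getD_filter_le (D b).length fun k =>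
        !(c.any fun i => Nat.beq i k) && pre d.tail ((D b).getD k [])
      omega

@[fun_prop] theorem pt_nx (hM : PT Bool M) (hj : PT Bool j) (hk : PT Bool k) :
    PT Bool fun b => nx (M b) (j b) (k b) :=
  PT.natRecN hj (fun b i => nx (M b) i (k b)) hk (fun y => (M y.1).getD y.2.2 0) (by fun_prop)
    (fun b i => Function.iterate_succ_apply' _ _ _)
    ⟨fun b => k b + (M b).sum, PT.pb (by fun_prop), fun b i _ => by
      cases i with
      | zero => simp [nx]
      | succ i =>
        rw [nx, Function.iterate_succ_apply']
        generalize (fun i => (M b).getD i 0)^[i] (k b) = r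
        by_cases h : r < (M b).length
        · rw [List.getD_eq_getElem _ _ h]
          exact (List.le_sum_of_mem (List.getElem_mem _)).trans (Nat.le_add_left _ _)
        · rw [List.getD_eq_default _ _ (by omega)]; omega⟩

@[fun_prop] theorem pt_col (hN : PT Bool N) (hD : PT Bool D) (hM : PT Bool M) (hk : PT Bool k) :
    PT Bool fun b => col (N b) (D b) (M b) (k b) := by unfold col; fun_prop

@[fun_prop] theorem pt_loop (hN : PT Bool N) (hD : PT Bool D) (hM : PT Bool M) (hk : PT Bool k)
    (hj : PT Bool j) (hm : PT Bool m) :
    PT Bool fun b => loop (N b) (D b) (M b) (k b) (j b) (m b) := by unfold loop; fun_prop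

@[fun_prop] theorem pt_loops (hN : PT Bool N) (hD : PT Bool D) (hM : PT Bool M) :
    PT Bool fun b => loops (N b) (D b) (M b) := by unfold loops; fun_prop

@[fun_prop] theorem pt_ov (hx : PT Bool x) (hv : PT Bool v) : PT Bool fun b => ov (x b) (v b) :=
  pt_maxL (pt_filter (PT.and' (by fun_prop) (pt_eqW (by fun_prop) (by fun_prop))) (by fun_prop))

@[fun_prop] theorem pt_dist (hx : PT Bool x) (hv : PT Bool v) :
    PT Bool fun b => dist (x b) (v b) := by unfold dist; fun_prop

@[fun_prop] theorem pt_cst (hx : PT Bool x) (ht : PT Bool t) :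
    PT Bool fun b => cst (x b) (t b) := by simp only [cst_eq]; fun_prop

@[fun_prop] theorem pt_glue (hx : PT Bool x) (hv : PT Bool v) :
    PT Bool fun b => glue (x b) (v b) := by unfold glue; fun_prop

@[fun_prop] theorem pt_used (hN : PT Bool N) (hD : PT Bool D) (hM : PT Bool M) (ht : PT Bool t)
    (hk : PT Bool k) : PT Bool fun b => used (N b) (D b) (M b) (t b) (k b) :=
  pt_all (by fun_prop) (pt_all (by fun_prop) (pt_any (by fun_prop)
    (pt_eqW (by fun_prop) (by fun_prop))))

@[fun_prop] theorem pt_nu (hN : PT Bool N) (hD : PT Bool D) (hM : PT Bool M) (ht : PT Bool t) :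
    PT Bool fun b => nu (N b) (D b) (M b) (t b) := by unfold nu; fun_prop

@[fun_prop] theorem pt_cands {L : α → List (List (List Lt))} (hL : PT Bool L) (ht : PT Bool t) :
    PT Bool fun b => cands (L b) (t b) := by unfold cands; fun_prop

@[fun_prop] theorem pt_stepT (hN : PT Bool N) (hD : PT Bool D) (hM : PT Bool M) (ht : PT Bool t) :
    PT Bool fun b => stepT (N b) (D b) (M b) (t b) := by unfold stepT; fun_prop

lemma getD_filter {β : Type} (l : List β) (p : β → Bool) (d : β) :
    ((l.filter p).getD 0 d = d ∧ ∀ c ∈ l, p c = false) ∨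
      ((l.filter p).getD 0 d ∈ l ∧ p ((l.filter p).getD 0 d) = true) := by
  cases h : l.filter p with
  | nil => exact Or.inl ⟨rfl, by simpa using h⟩
  | cons a r =>
    have : a ∈ l.filter p := by simp [h]
    exact Or.inr (by simpa using this)

@[fun_prop] theorem pt_tour (hN : PT Bool N) (hD : PT Bool D) (hM : PT Bool M) :
    PT Bool fun b => tour (N b) (D b) (M b) :=
  pt_foldl (l := fun b => List.range (D b).length) (by fun_prop) (PT.const [])
    (fun b t _ => stepT (N b) (D b) (M b) t) (by fun_prop)
    (fun b => 3 * (encL (loops (N b) (D b) (M b))).length)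
    ((PT.const 3).mul (ptL_iff.1 (pt_loops hN hD hM)).length) fun b c d _ => by
      change (encL _).length ≤ (encL _).length + _
      unfold stepT
      rcases getD_filter (cands (loops (N b) (D b) (M b)) c) _ c with h | h
      · rw [h.1]; omega
      · have h1 := h.1
        generalize (List.filter _ _).getD 0 c = r at h1
        simp only [cands, List.mem_flatMap, List.mem_map] at h1
        obtain ⟨p, -, L1, h1, L2, h2, L3, h3, rfl⟩ := h1
        have e1 := esc_le h1
        have e2 := esc_le h2
        have e3 := esc_le h3
        have e4 := encL_append (c.take p) (c.drop p)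
        rw [length_esc] at e1 e2 e3
        rw [List.take_append_drop] at e4
        simp only [encL_append, pack] at e1 e2 e3 ⊢
        omega

theorem pt_alg : PT Bool (alg : List (List Lt) → List Lt) :=
  pt_foldl (l := fun S : List (List Lt) => tour (tot S) (toks S) (mtch (toks S))) (by fun_prop)
    (PT.const []) (fun _ => glue) (by fun_prop)
    (fun S => (encL (tour (tot S) (toks S) (mtch (toks S)))).length)
    (ptL_iff.1 (by fun_prop)).length fun b c d hd => by
      change (encL _).length ≤ (encL _).length + _
      have e1 := esc_le hd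
      have e4 := encL_append (d.take (ov c d)) (d.drop (ov c d))
      rw [length_esc] at e1
      rw [List.take_append_drop] at e4
      simp only [glue, encL_append, pack] at e1 ⊢
      omega

theorem alg_tm : ∃ h : Turing.TM2ComputableInPolyTime encInst encWord alg,
    ∀ k, Finite (h.tm.Γ k) :=
  PT.toTM2 encInst encWord alg (Φ := fun s => pack (alg (unpack s : List (List Lt))))
    (pt_pack.comp (pt_alg.comp pt_unpack)) fun S => by
      have : encInst S = pack S := rfl
      rw [this, unpack_pack]; rfl

end Vale.Agent.P333
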