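import Vale.Agent.P333.Geo
import Vale.Agent.P333.Match
import Vale.Agent.P333.Build
import Vale.Agent.P333.Time

/-! The tour construction and the final bound. -/

namespace Vale.Agent.P333

open Finset

set_option linter.unusedSectionVars false

variable {A : Type} [DecidableEq A] [Inhabited A]

lemma ov_spec (a b : List A) : ov a b ≤ a.length ∧ ov a b ≤ b.length ∧
    a.drop (a.length - ov a b) = b.take (ov a b) := by
  rcases maxL_mem _ with h | h
  · rw [ov, h]; simp
  · rw [← ov] at h
    simp only [List.mem_filter, List.mem_range, Bool.and_eq_true, Nat.ble_eq,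
      decide_eq_true_eq] at h
    exact ⟨h.2.1, by omega, h.2.2⟩

lemma glue_spec (l : List (List A)) (s p : List A) (h : p <:+ s) :
    (l.foldl glue s).length ≤ s.length + cst p l ∧ s <+: l.foldl glue s ∧
      ∀ v ∈ l, v <:+: l.foldl glue s := by
  induction l generalizing s p with
  | nil => simp
  | cons v l ih =>
    obtain ⟨a1, a2, a3⟩ := ov_spec s v
    obtain ⟨b1, b2, b3⟩ := ov_spec p v
    have h1 : v <:+ glue s v := ⟨s.take (s.length - ov s v), by
      rw [glue]
      generalize ov s v = k at a3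
      conv_lhs => rw [← List.take_append_drop k v, ← a3, ← List.append_assoc,
        List.take_append_drop]⟩
    obtain ⟨i1, i2, i3⟩ := ih _ _ h1
    have h2 : ov p v ≤ ov s v := by
      obtain ⟨r, rfl⟩ := h
      refine le_ov (by simp; omega) b2 ?_
      rw [← b3, List.length_append, Nat.add_sub_assoc b1, List.drop_append]
      simp
    refine ⟨?_, (List.prefix_append _ _).trans i2, fun w hw => ?_⟩
    · have : (glue s v).length = s.length + (v.length - ov s v) := by simp [glue]
      simp only [List.foldl_cons, cst, dist]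
      omega
    · rcases List.mem_cons.1 hw with rfl | hw
      · exact h1.isInfix.trans i2.isInfix
      · exact i3 w hw

lemma cst_mono {l l' : List (List A)} {c : ℕ} (h : ∀ q, cst q l ≤ cst q l' + c)
    (a : List (List A)) (p : List A) : cst p (a ++ l) ≤ cst p (a ++ l') + c := by
  induction a generalizing p with
  | nil => exact h p
  | cons v a ih => have := ih v; simp only [List.cons_append, cst]; omega

lemma cst_le_nil (p : List A) (l : List (List A)) : cst p l ≤ cst [] l := by
  cases l with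
  | nil => rfl
  | cons v l => have := (ov_spec [] v).1; simp only [cst, dist, List.length_nil] at *; omega

lemma cst_chain (z : ℤ → A) (r : List (List A)) (hi : ℤ × ℤ) (l : List (ℤ × ℤ)) (y : ℤ × ℤ)
    (h : (y :: l).Pairwise (· ≤ ·)) (h1 : hi ∈ y :: l) (h2 : ∀ v ∈ l, hi ≤ v → v = hi) :
    (cst (seg z y.1 y.2) (l.map (fun v => seg z v.1 v.2) ++ r) : ℤ)
      ≤ hi.2 - y.2 + cst (seg z hi.1 hi.2) r := by
  induction l generalizing y with
  | nil => rw [List.mem_singleton.1 h1]; simp
  | cons v l ih =>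
    rw [List.pairwise_cons] at h
    have h3 := h.1 v (by simp)
    have := ih v h.2 (by
      rcases List.mem_cons.1 h1 with rfl | h1
      · simp [h2 v (by simp) h3]
      · exact h1) fun w hw => h2 w (by simp [hw])
    have := dist_seg z h3.1 h3.2
    have := h3.2
    simp only [List.map_cons, List.cons_append, cst]
    omega

namespace Sys

variable {N : ℕ} {D : List (List A)} {M : List ℕ} {s : Sys A (Fin D.length)}

/-- The system is the one encoded by `D` and `M`. -/
structure Enc (N : ℕ) (M : List ℕ) (s : Sys A (Fin D.length)) : Prop where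
  hw : ∀ i, s.wd i = D.getD i []
  hσ : ∀ i, (s.σ i : ℕ) = M.getD i 0
  hN : ∀ i, (s.wd i).length ≤ N

lemma Enc.nx_eq (h : s.Enc N M) (c : ℕ) (k : Fin D.length) : nx M c k = (s.σ ^ c) k := by
  induction c with
  | zero => rfl
  | succ c ih => rw [nx, Function.iterate_succ_apply', ← nx, ih, ← h.hσ, pow_succ']; rfl

lemma Enc.col_eq (h : s.Enc N M) (k : Fin D.length) : col N D M k =
    ((List.range (N + 1)).filter fun e => Nat.ble (s.wd k).length (e + 1) &&
      Nat.ble e (s.wd (s.σ k)).length).map fun e => (s.wd (s.σ k)).take e := by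
  rw [col, ← h.hσ, ← h.hw, ← h.hw]

lemma Enc.mem_col (h : s.Enc N M) {k : Fin D.length} {v : List A} :
    v ∈ col N D M k ↔ (s.wd k).tail <+: v ∧ v <+: s.wd (s.σ k) := by
  simp only [h.col_eq, List.mem_map, List.mem_filter, List.mem_range, Bool.and_eq_true, Nat.ble_eq]
  constructor
  · rintro ⟨e, ⟨-, h1, -⟩, rfl⟩
    exact ⟨List.prefix_take_iff.2 ⟨s.tl k, by simp; omega⟩, List.take_prefix _ _⟩
  · rintro ⟨h1, h2⟩
    have := h1.length_le
    have := h2.length_le
    have := h.hN (s.σ k)
    rw [List.length_tail] at *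
    exact ⟨v.length, ⟨by omega, by omega, by omega⟩, (List.prefix_iff_eq_take.1 h2).symm⟩

lemma exists_pow {t t' : Fin D.length} (h : s.σ.SameCycle t t') :
    ∃ c < s.per t, (s.σ ^ c) t = t' := by
  obtain ⟨n, -, rfl⟩ := h.exists_pow_eq'
  exact ⟨n % s.per t, Nat.mod_lt _ (s.per_pos t), Function.iterate_mod_minimalPeriod_eq⟩

lemma Enc.used_iff (h : s.Enc N M) {t : List (List A)} {k : Fin D.length} :
    used N D M t k = true ↔ ∀ v, s.Vx k v → v ∈ t := by
  simp only [used, List.all_eq_true, List.mem_range, List.any_eq_true, decide_eq_true_eq,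
    exists_eq_right, h.nx_eq, h.mem_col]
  constructor
  · rintro h1 v ⟨t', h2, h3⟩
    obtain ⟨c, c1, rfl⟩ := exists_pow h2
    exact h1 c (c1.trans_le (by simpa using s.per_le k)) v h3
  · exact fun h1 c _ v hv => h1 v ⟨_, ⟨c, by simp⟩, hv⟩

lemma Enc.loop_cst (h : s.Enc N M) {k : Fin D.length} {x : List A}
    (h1 : (s.wd k).tail <+: x) (h2 : x <+: s.wd (s.σ k)) {m : ℕ} (hm : (s.σ ^ m) k = k)
    (p : List A) (r : List (List A)) :
    cst p (loop N D M k x.length m ++ r) ≤ dist p x + m + cst x r := by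
  have tk : ∀ (c e : ℕ), e ≤ (s.wd (s.σ ((s.σ ^ c) k))).length →
      (s.wd (s.σ ((s.σ ^ c) k))).take e = seg (s.w k) (c + 1) (c + 1 + e) := fun c e he => by
    have e1 := s.wd_eq k (c + 1)
    have e2 := s.len_zpow k (c + 1)
    rw [← zpow_succ, zpow_natCast] at e1 e2
    have := seg_prefix (s.w k) (c + 1) (show (c : ℤ) + 1 + e ≤ s.f k (c + 1) by omega)
    rw [← e1, List.prefix_iff_eq_take] at this
    rw [this]; simp
  obtain ⟨L, hL⟩ : ∃ L : List (ℤ × ℤ), L = (List.range (m + 1)).flatMap fun c =>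
    ((List.range (N + 1)).filter fun e => (Nat.ble (s.wd ((s.σ ^ c) k)).length (e + 1) &&
      Nat.ble e (s.wd (s.σ ((s.σ ^ c) k))).length) &&
      ((!Nat.beq c 0 || Nat.ble x.length e) && (!Nat.beq c m || Nat.ble e x.length))).map
      fun e : ℕ => ((c : ℤ) + 1, (c : ℤ) + 1 + e) := ⟨_, rfl⟩
  have e : loop N D M k x.length m = L.map fun v => seg (s.w k) v.1 v.2 := by
    rw [loop, hL, List.map_flatMap]
    refine List.flatMap_congr fun c _ => ?_
    rw [h.nx_eq, h.col_eq, List.filter_map, List.filter_filter, List.map_map]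
    refine (congrArg _ (List.filter_congr fun e _ => ?_)).trans (List.map_congr_left fun e he => ?_)
    · cases h3 : Nat.ble e (s.wd (s.σ ((s.σ ^ c) k))).length
      · simp
      · rw [Nat.ble_eq] at h3
        simp [min_eq_left h3, Bool.and_comm]
    · simp only [List.mem_filter, Bool.and_eq_true, Nat.ble_eq] at he
      exact tk c e he.2.1.2
  have hm' : ∀ y, y ∈ L ↔ ∃ c ≤ m, ∃ e : ℕ, (s.wd ((s.σ ^ c) k)).length ≤ e + 1 ∧
      e ≤ (s.wd (s.σ ((s.σ ^ c) k))).length ∧ (c = 0 → x.length ≤ e) ∧ (c = m → e ≤ x.length) ∧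
      y = ((c : ℤ) + 1, (c : ℤ) + 1 + e) := fun y => by
    simp only [hL, List.mem_flatMap, List.mem_range, List.mem_map, List.mem_filter,
      Bool.and_eq_true, Nat.ble_eq, Bool.or_eq_true, Bool.not_eq_true', ← Bool.not_eq_true, Nat.beq_eq,
      Nat.lt_succ_iff, ← imp_iff_not_or]
    refine exists_congr fun c => and_congr_right fun _ => exists_congr fun e => ?_
    have := h.hN (s.σ ((s.σ ^ c) k))
    constructor
    · rintro ⟨⟨-, ⟨a, b⟩, c, d⟩, rfl⟩; exact ⟨a, b, c, d, rfl⟩
    · rintro ⟨a, b, c, d, rfl⟩; exact ⟨⟨by omega, ⟨a, b⟩, c, d⟩, rfl⟩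
  have hp : L.Pairwise (· ≤ ·) := by
    rw [hL, List.pairwise_flatMap]
    refine ⟨fun c _ => ?_, List.pairwise_lt_range.imp fun {c c'} hc a ha b hb => ?_⟩
    · rw [List.pairwise_map]
      exact (List.pairwise_lt_range.filter _).imp fun h => ⟨le_rfl, by simp only; omega⟩
    · simp only [List.mem_map, List.mem_filter, Bool.and_eq_true, Nat.ble_eq] at ha hb
      obtain ⟨a, ⟨-, ⟨-, a1⟩, -⟩, rfl⟩ := ha
      obtain ⟨b, ⟨-, ⟨b1, -⟩, -⟩, rfl⟩ := hb
      have e1 := s.len_zpow k (c + 1)
      have e2 := s.len_zpow k c'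
      have e3 := s.f_mono k (show (c : ℤ) + 1 ≤ c' by omega)
      rw [← zpow_succ, zpow_natCast] at e1
      rw [zpow_natCast] at e2
      exact ⟨by simp only; omega, by simp only; omega⟩
  have l1 := h1.length_le
  have l2 := h2.length_le
  rw [List.length_tail] at l1
  have x0 := tk 0 x.length l2
  have xm := tk m x.length (by rwa [hm])
  rw [hm] at xm
  simp only [pow_zero, Equiv.Perm.one_apply] at x0
  rw [← List.prefix_iff_eq_take.1 h2] at x0 xm
  have m0 := (hm' _).2 ⟨0, by omega, x.length, by simp; omega, l2, fun _ => le_rfl,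
    fun _ => le_rfl, rfl⟩
  have mm := (hm' _).2 ⟨m, le_rfl, x.length, by rw [hm]; omega, by rwa [hm], fun _ => le_rfl,
    fun _ => le_rfl, rfl⟩
  rw [e]
  clear hL e
  cases L with
  | nil => simp at m0
  | cons y L =>
    have := cst_chain (s.w k) r _ L y hp mm fun v hv hv' => by
      obtain ⟨c, c1, e, -, -, -, c2, rfl⟩ := (hm' v).1 (by simp [hv])
      obtain ⟨a, b⟩ := hv'
      simp only at a b
      obtain rfl : c = m := by omega
      have := c2 rfl
      rw [show e = x.length by omega]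
    obtain rfl : y = (((0 : ℕ) : ℤ) + 1, ((0 : ℕ) : ℤ) + 1 + x.length) := by
      rcases List.mem_cons.1 m0 with h3 | h3
      · exact h3.symm
      obtain ⟨c, c1, e, -, -, c2, -, rfl⟩ := (hm' y).1 (by simp)
      obtain ⟨a, b⟩ := (List.pairwise_cons.1 hp).1 _ h3
      simp only at a b
      obtain rfl : c = 0 := by omega
      have := c2 rfl
      rw [show e = x.length by omega]
    simp only [List.map_cons, List.cons_append, cst, ← x0, ← xm] at this ⊢
    omega

lemma Enc.mem_loop (h : s.Enc N M) {k : Fin D.length} (j : ℕ) {v : List A} (hv : s.Vx k v) :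
    v ∈ loop N D M k j (s.per k) := by
  obtain ⟨t', h1, h2⟩ := hv
  obtain ⟨c, c1, rfl⟩ := exists_pow h1
  have e := s.pow_per k
  rw [zpow_natCast] at e
  simp only [loop, List.mem_flatMap, List.mem_range, List.mem_filter, h.nx_eq, h.mem_col,
    Bool.and_eq_true, Nat.ble_eq, Bool.or_eq_true, Bool.not_eq_true', ← Bool.not_eq_true, Nat.beq_eq]
  by_cases h3 : c = 0 ∧ v.length < j
  · obtain ⟨rfl, h3⟩ := h3
    exact ⟨s.per k, by omega, by rwa [e], by omega, by omega⟩
  · exact ⟨c, by omega, h2, by omega, by omega⟩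

lemma Enc.exists_loop (h : s.Enc N M) {t : Fin D.length} {x : List A} (hx : s.Vx t x) :
    (∃ L ∈ loops N D M, ∀ p r, cst p (L ++ r) ≤ dist p x + cst x r) ∧
      ∃ L ∈ loops N D M, (∀ v, s.Vx t v → v ∈ L) ∧
        ∀ p r, cst p (L ++ r) ≤ dist p x + s.per t + cst x r := by
  obtain ⟨k, h1, h2, h3⟩ := hx
  have h4 : ∀ m ≤ D.length, loop N D M k x.length m ∈ loops N D M := fun m hm => by
    have := h3.length_le.trans (h.hN _)
    simp only [loops, List.mem_cons, List.mem_flatMap, List.mem_range, List.mem_map]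
    exact Or.inr ⟨k, k.2, x.length, by omega, m, by omega, rfl⟩
  have e := s.pow_per k
  rw [zpow_natCast] at e
  refine ⟨⟨_, h4 0 (by omega), h.loop_cst h2 h3 rfl⟩, _, h4 (s.per k) (by simpa using s.per_le k),
    fun v ⟨t', a, b⟩ => h.mem_loop _ ⟨t', h1.symm.trans a, b⟩, ?_⟩
  rw [← s.per_eq h1]
  exact h.loop_cst h2 h3 e

lemma card_step (l : List (Fin D.length)) (hl : l.Pairwise fun a b => ¬s.σ.SameCycle a b)
    (X Y : Finset (Fin D.length)) (h : X ⊆ Y)
    (h1 : ∀ k ∈ l, ∀ k', s.σ.SameCycle k k' → k' ∉ X ∧ k' ∈ Y) :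
    X.card + (l.map s.per).sum ≤ Y.card := by
  induction l generalizing X with
  | nil => simpa using card_le_card h
  | cons k l ih =>
    rw [List.pairwise_cons] at hl
    have h2 : ∀ k' ∈ (range (s.per k)).image fun c => (s.σ ^ c) k, s.σ.SameCycle k k' := by
      simp only [mem_image]
      rintro _ ⟨c, -, rfl⟩
      exact ⟨c, by simp⟩
    have := ih hl.2 (X ∪ (range (s.per k)).image fun c => (s.σ ^ c) k)
      (union_subset h fun a ha => (h1 k (by simp) a (h2 a ha)).2) fun a ha b hb =>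
      ⟨by
        rw [mem_union, not_or]
        exact ⟨(h1 a (by simp [ha]) b hb).1, fun h3 => hl.1 a ha ((h2 b h3).trans hb.symm)⟩,
      (h1 a (by simp [ha]) b hb).2⟩
    rw [card_union_of_disjoint (disjoint_right.2 fun a ha => (h1 k (by simp) a (h2 a ha)).1),
      card_image_of_injOn (by rw [coe_range]; exact Function.iterate_injOn_Iio_minimalPeriod),
      card_range] at this
    simp only [List.map_cons, List.sum_cons]
    omega

lemma mem_cands {L : List (List (List A))} {t t' : List (List A)} : t' ∈ cands L t ↔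
    ∃ p ≤ t.length, ∃ L1 ∈ L, ∃ L2 ∈ L, ∃ L3 ∈ L,
      t.take p ++ (L1 ++ L2 ++ L3) ++ t.drop p = t' := by
  simp only [cands, List.mem_flatMap, List.mem_range, List.mem_map, Nat.lt_succ_iff]

lemma sub_cands {L : List (List (List A))} {t t' : List (List A)} (h : t' ∈ cands L t) :
    ∀ v ∈ t, v ∈ t' := by
  obtain ⟨p, -, L1, -, L2, -, L3, -, rfl⟩ := mem_cands.1 h
  intro v hv
  rw [← List.take_append_drop p t] at hv
  simp only [List.mem_append] at hv ⊢
  tauto

lemma vx_cyc {t t' : Fin D.length} (h : s.σ.SameCycle t t') {v : List A} (hv : s.Vx t' v) :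
    s.Vx t v := let ⟨k, a, b⟩ := hv; ⟨k, h.trans a, b⟩

lemma Enc.step (h : s.Enc N M) {t : List (List A)} (ho : s.Opt fun k => ¬∀ v, s.Vx k v → v ∈ t)
    (hc : cst [] t ≤ 2 * nu N D M t) : ∃ t' ∈ cands (loops N D M) t,
      nu N D M t + 1 ≤ nu N D M t' ∧ cst [] t' ≤ 2 * nu N D M t' := by
  have nil : [] ∈ loops N D M := List.mem_cons_self
  suffices ∃ t' ∈ cands (loops N D M) t, ∃ k, ∃ l : List (Fin D.length),
      ((k :: l).Pairwise fun a b => ¬s.σ.SameCycle a b) ∧
      (∀ a ∈ k :: l, (¬∀ v, s.Vx a v → v ∈ t) ∧ ∀ v, s.Vx a v → v ∈ t') ∧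
      cst [] t' ≤ cst [] t + 2 * ((k :: l).map s.per).sum by
    obtain ⟨t', h1, k, l, h2, h3, h4⟩ := this
    have := card_step _ h2 (univ.filter fun a => used N D M t a = true)
      (univ.filter fun a => used N D M t' a = true) (fun a => by
        simp only [mem_filter, mem_univ, true_and, h.used_iff]
        exact fun h v hv => sub_cands h1 v (h v hv)) fun a ha b hb => by
        simp only [mem_filter, mem_univ, true_and, h.used_iff]
        exact ⟨fun h => (h3 a ha).1 fun v hv => h v (vx_cyc hb.symm hv),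
          fun v hv => (h3 a ha).2 v (vx_cyc hb hv)⟩
    rw [← countP_card, ← countP_card, ← nu, ← nu] at this
    have := s.per_pos k
    simp only [List.map_cons, List.sum_cons] at *
    exact ⟨t', h1, by omega, by omega⟩
  have dn : ∀ x : List A, dist [] x ≤ x.length := fun x => Nat.sub_le _ _
  rcases ho with ⟨a, b, x, y, a1, b1, a2, b2, h1⟩ | ⟨a, x, a1, a2, h1⟩ |
    ⟨a, b, x, y, a1, b1, ab, a2, b2, h1⟩ | ⟨a, b, c, x, y, v, a1, b1, c1, ab, ac, bc, a2, b2, c2, h1⟩
  · obtain ⟨⟨L1, l1, l2⟩, -⟩ := h.exists_loop b2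
    obtain ⟨-, L2, m1, m2, m3⟩ := h.exists_loop a2
    obtain ⟨r1, r2, rfl⟩ := List.append_of_mem (not_not.1 b1 y b2)
    refine ⟨_, mem_cands.2 ⟨r1.length, by simp, L1, l1, L2, m1, [], nil, rfl⟩, a, [], by simp,
      by simpa using ⟨by simpa using a1, fun v hv => by simp [m2 v hv]⟩, ?_⟩
    rw [List.take_left', List.drop_left', List.append_assoc] <;> try rfl
    refine cst_mono (fun q => ?_) _ _
    have := l2 q (L2 ++ y :: r2)
    have := m3 y (y :: r2)
    simp only [List.append_nil, List.append_assoc, cst, List.map_cons, List.sum_cons, List.map_nil,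
      List.sum_nil] at *
    omega
  · obtain ⟨-, L1, l1, l2, l3⟩ := h.exists_loop a2
    refine ⟨_, mem_cands.2 ⟨0, by simp, L1, l1, [], nil, [], nil, rfl⟩, a, [], by simp,
      by simpa using ⟨by simpa using a1, fun v hv => by simp [l2 v hv]⟩, ?_⟩
    have := l3 [] t
    have := dn x
    have := cst_le_nil x t
    simp only [List.append_nil, List.take_zero, List.drop_zero, List.nil_append, List.map_cons,
      List.sum_cons, List.map_nil, List.sum_nil]
    omega
  · obtain ⟨-, L1, l1, l2, l3⟩ := h.exists_loop a2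
    obtain ⟨-, L2, m1, m2, m3⟩ := h.exists_loop b2
    refine ⟨_, mem_cands.2 ⟨0, by simp, L1, l1, L2, m1, [], nil, rfl⟩, a, [b], by simp [ab],
      by simpa using ⟨⟨by simpa using a1, fun v hv => by simp [l2 v hv]⟩,
        by simpa using b1, fun v hv => by simp [m2 v hv]⟩, ?_⟩
    have := l3 [] (L2 ++ t)
    have := m3 x t
    have := dn x
    have := cst_le_nil y t
    simp only [List.append_nil, List.take_zero, List.drop_zero, List.nil_append, List.map_cons,
      List.sum_cons, List.map_nil, List.sum_nil, List.append_assoc]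
    omega
  · obtain ⟨-, L1, l1, l2, l3⟩ := h.exists_loop a2
    obtain ⟨-, L2, m1, m2, m3⟩ := h.exists_loop b2
    obtain ⟨-, L3, n1, n2, n3⟩ := h.exists_loop c2
    refine ⟨_, mem_cands.2 ⟨0, by simp, L1, l1, L2, m1, L3, n1, rfl⟩, a, [b, c],
      by simp [ab, ac, bc], by simpa using ⟨⟨by simpa using a1, fun v hv => by simp [l2 v hv]⟩,
        ⟨by simpa using b1, fun v hv => by simp [m2 v hv]⟩,
        by simpa using c1, fun v hv => by simp [n2 v hv]⟩, ?_⟩
    have := l3 [] (L2 ++ (L3 ++ t))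
    have := m3 x (L3 ++ t)
    have := n3 y t
    have := dn x
    have := cst_le_nil v t
    simp only [List.take_zero, List.drop_zero, List.nil_append, List.map_cons,
      List.sum_cons, List.map_nil, List.sum_nil, List.append_assoc]
    omega

theorem Enc.tour_spec (h : s.Enc N M) (hQ : s.Q N) : cst [] (tour N D M) ≤ 2 * D.length ∧
    ∀ s0, (∀ t, s.wd s0 <:+: s.wd t → s.wd t = s.wd s0) → s.wd s0 ∈ tour N D M := by
  have key : ∀ r, ∃ t, t = (List.range r).foldl (fun t _ => stepT N D M t) [] ∧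
      cst [] t ≤ 2 * nu N D M t ∧ (r ≤ nu N D M t ∨
      ∀ s0, (∀ t, s.wd s0 <:+: s.wd t → s.wd t = s.wd s0) → ∀ v, s.Vx s0 v → v ∈ t) := by
    intro r
    induction r with
    | zero => exact ⟨_, rfl, Nat.zero_le _, Or.inl (Nat.zero_le _)⟩
    | succ r ih =>
      obtain ⟨t, e, i1, i2⟩ := ih
      refine ⟨stepT N D M t, by rw [List.range_succ, List.foldl_append, ← e]; rfl, ?_⟩
      rcases getD_filter (cands (loops N D M) t) (fun t' => Nat.ble (nu N D M t + 1) (nu N D M t')
        && Nat.ble (cst [] t') (2 * nu N D M t')) t with h1 | h1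
      · rw [stepT, h1.1]
        refine ⟨i1, Or.inr fun s0 h0 => ?_⟩
        by_contra h2
        obtain ⟨t', a, b, c⟩ := h.step (geo hQ (fun a b hab ha hb => ha fun v hv =>
          hb v (vx_cyc hab.symm hv)) h2 h0) i1
        simpa [Nat.ble_eq_true_of_le b, Nat.ble_eq_true_of_le c] using h1.2 t' a
      · rw [← stepT] at h1
        simp only [Bool.and_eq_true, Nat.ble_eq] at h1
        exact ⟨h1.2.2, i2.imp (by omega) fun h2 s0 h0 v hv => sub_cands h1.1 v (h2 s0 h0 v hv)⟩
  obtain ⟨t, e, h1, h2⟩ := key D.length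
  rw [← tour] at e
  subst e
  have h3 : nu N D M (tour N D M) ≤ D.length := List.countP_le_length.trans (by simp)
  refine ⟨by omega, fun s0 h0 => ?_⟩
  have hv : s.Vx s0 (s.wd s0) := by
    have e := s.wd_eq s0 0
    rw [zpow_zero, Equiv.Perm.one_apply] at e
    rw [e]; exact s.vx_seg s0 (s.f_mono s0 (by omega)) le_rfl
  rcases h2 with h2 | h2
  · exact h.used_iff.1 (List.countP_eq_length.1 (le_antisymm List.countP_le_length
      (List.length_range.le.trans h2)) _ (by simp)) _ hv
  · exact h2 s0 h0 _ hv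

end Sys

theorem alg_spec (S : List (List A)) : (∀ s ∈ S, s <:+: alg S) ∧
    ∀ T, (∀ s ∈ S, s <:+: T) → (alg S).length ≤ 2 * T.length := by
  obtain ⟨h1, h2, h3, h4, h5, h6⟩ := toks_spec S
  obtain ⟨s, hw, hσ⟩ := exists_sys (fun v hv => (h1 v hv).1) h2 h5
  have hm : ∀ i, s.wd i ∈ toks S := fun i => by
    rw [hw, List.getD_eq_getElem _ _ i.2]
    exact List.getElem_mem _
  obtain ⟨t1, t2⟩ := Sys.Enc.tour_spec (N := tot S) ⟨hw, hσ, fun i => by
    obtain ⟨-, x, hx, h⟩ := h1 _ (hm i)
    exact h.length_le.trans (le_tot hx)⟩ (s.Q_of hw h6)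
  obtain ⟨g1, -, g2⟩ := glue_spec (tour (tot S) (toks S) (mtch (toks S))) [] [] (by rfl)
  rw [← alg] at g1 g2
  refine ⟨fun x hx => ?_, fun T hT => ?_⟩
  · by_cases h0 : x = []
    · simp [h0]
    obtain ⟨v, hv, hv'⟩ := List.countP_pos_iff.1 (h4 x hx h0)
    obtain ⟨i, hi, rfl⟩ := List.getElem_of_mem hv
    obtain ⟨s0, a, b⟩ := exists_max_image (univ.filter fun i => x <:+: s.wd i)
      (fun i => (s.wd i).length) ⟨⟨i, hi⟩, by
        rw [mem_filter, hw, List.getD_eq_getElem _ _ hi]
        exact ⟨mem_univ _, (pre_iff.1 hv').isInfix⟩⟩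
    simp only [mem_filter, mem_univ, true_and] at a b
    exact a.trans (g2 _ (t2 s0 fun t ht => (ht.eq_of_length_le (b t (a.trans ht))).symm))
  · have := h3 T hT
    simp only [List.length_nil] at g1
    omega

end Vale.Agent.P333
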